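import Vale.Agent.P233.RA.Defs
import Vale.Agent.P233.H326.GEnd

/-!
P233, RCDA, block Z (helper131): from the calculus of classes back to the statement in terms of
functions. `isRCD_of_NSp`: the data `NSp` and `BE(K,n)` for classes give `T.IsRCD`; and the final
statement (no hypothesis on `RCD`) from the two halves `PartGL`, `PartN` and `H326.MainThm`.
-/

set_option linter.all false

open MeasureTheory Filter Topology Set
open scoped ENNReal NNReal InnerProductSpace MeasureTheory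

universe u

namespace Vale.Agent.P233.H131.Z

section B

variable {M : Type u} [MetricSpace M] [MeasurableSpace M] [BorelSpace M]
  [SecondCountableTopology M] {m : Measure M}

/-- `BE(K,N)` for classes implies `BE(K,N)` for functions -/
theorem S_BE_of {K N : ℝ} (h : (sob m).BE K N) : (S.sob m).BE K N := by
  intro f k φ ψ b h1 h2 h3 h4
  obtain ⟨F, rF, hF⟩ := S_W_exists h1.1
  obtain ⟨H, rH, hH⟩ := S_W_exists h2
  obtain ⟨Φ, rΦ, hΦ⟩ := S_W_exists h3.1
  obtain ⟨Ψ, rΨ⟩ := S_L2_exists (m := m) (f := ψ) h3.2.1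
  have l1 := (rF.isLap_iff rH).1 h1
  have l2 := (rΦ.isLap_iff rΨ).1 h3
  have h4' : ∀ᵐ x ∂m, 0 ≤ φ x ∧ φ x ≤ b ∧ |ψ x| ≤ b := h4
  have h5 : 0 ≤ Φ := by
    rw [nonneg_iff_ae]
    filter_upwards [rΦ, h4'] with x a1 a2
    rw [← a1]
    exact a2.1
  have h6 : MemLp Φ ∞ m := by
    refine mem_top_iff.2 ⟨b, ?_⟩
    filter_upwards [rΦ, h4'] with x a1 a2
    rw [← a1, abs_of_nonneg a2.1]
    exact a2.2.1
  have h7 : MemLp Ψ ∞ m := by
    refine mem_top_iff.2 ⟨b, ?_⟩
    filter_upwards [rΨ, h4'] with x a1 a2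
    rw [← a1]
    exact a2.2.2
  have h8 := h F H Φ Ψ l1 hH l2 h5 h6 h7
  have e1 : R (fun x => φ x * ((S.sob m).Γ f k x + K * (S.sob m).Γ f f x + k x ^ 2 / N))
      (Φ * ((sob m).Γ F H + K • (sob m).Γ F F + N⁻¹ • H ^ 2)) := by
    refine rΦ.mul (R.add (R.add (rF.Γ rH hF hH) (R.smul K (rF.Γ rF hF hF))) ?_)
    filter_upwards [R.smul N⁻¹ rH.sq] with x hx
    rw [← hx]
    ring
  have e2 : R (fun x => (S.sob m).Γ f f x * ψ x) ((sob m).Γ F F * Ψ) :=
    R.mul (rF.Γ rF hF hF) rΨ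
  rw [e1.int, e2.int]
  refine h8.trans (le_of_eq ?_)
  rw [integral_congr_ae (smul_ae ((sob m).Γ F F * Ψ) (2 : ℝ)⁻¹), integral_const_mul]
  ring

theorem S_isRCD_of {K N : ℝ}
    (hq : ∀ f ∈ (sob m).W, ∀ g ∈ (sob m).W,
      ∫ x, (slope (f + g) ^ 2) x ∂m + ∫ x, (slope (f - g) ^ 2) x ∂m
        = 2 * ∫ x, (slope f ^ 2) x ∂m + 2 * ∫ x, (slope g ^ 2) x ∂m)
    (hg : ∃ (x₀ : M) (c : ℝ), ∀ r > 0,
      m (Metric.ball x₀ r) ≤ ENNReal.ofReal (c * Real.exp (c * r ^ 2)))
    (hs : ∀ f ∈ (sob m).W, slope f ≤ 1 → ∃ u : M → ℝ, LipschitzWith 1 u ∧ f =ᵐ[m] u)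
    (hb : (sob m).BE K N) : S.IsRCD m K N where
  quadratic := by
    intro f g hf hg
    obtain ⟨F, rF, hF⟩ := S_W_exists hf
    obtain ⟨G, rG, hG⟩ := S_W_exists hg
    have h1 := hq F hF G hG
    have hs := sob_add_mem hF hG
    have hd := sob_sub_mem hF hG
    have a1 := ((rF.add rG).slope hs).sq
    have a2 := ((rF.sub rG).slope hd).sq
    have a3 := (rF.slope hF).sq
    have a4 := (rG.slope hG).sq
    have key : ∀ E : M →ₘ[m] ℝ, E ∈ (sob m).W → Integrable (slope E ^ 2 : M →ₘ[m] ℝ) m := by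
      intro E hE
      exact int_of_mem (mem_sq (exists_minSlope' hE).1.2.1)
    have e1 : ∫ x, S.slope m (fun y => f y + g y) x ^ 2 + S.slope m (fun y => f y - g y) x ^ 2 ∂m
        = ∫ x, (slope (F + G) ^ 2) x ∂m + ∫ x, (slope (F - G) ^ 2) x ∂m := by
      rw [← integral_add (key _ hs) (key _ hd)]
      refine integral_congr_ae ?_
      filter_upwards [a1, a2] with x b1 b2
      rw [b1, b2]
    have e2 : ∫ x, 2 * S.slope m f x ^ 2 + 2 * S.slope m g x ^ 2 ∂m
        = 2 * ∫ x, (slope F ^ 2) x ∂m + 2 * ∫ x, (slope G ^ 2) x ∂m := by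
      rw [← integral_const_mul, ← integral_const_mul,
        ← integral_add ((key _ hF).const_mul 2) ((key _ hG).const_mul 2)]
      refine integral_congr_ae ?_
      filter_upwards [a3, a4] with x b3 b4
      rw [b3, b4]
    rw [e1, h1, e2]
  growth := hg
  sobolev_to_lipschitz := by
    intro f hf h1
    obtain ⟨F, rF, hF⟩ := S_W_exists hf
    have h2 : slope F ≤ 1 := by
      rw [le_iff_ae]
      filter_upwards [rF.slope hF, h1, one_ae (M := M) (m := m)] with x b1 b2 b3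
      rw [← b1, b3]
      exact b2
    obtain ⟨u, hu1, hu2⟩ := hs F hF h2
    exact ⟨u, hu1, Filter.EventuallyEq.trans rF hu2⟩
  bochner := S_BE_of hb

theorem T_of_S {K N : ℝ} (h : S.IsRCD m K N) : T.IsRCD m K N :=
  ⟨h.quadratic, h.growth, h.sobolev_to_lipschitz, h.bochner⟩

/-- exponential growth implies the growth condition of the statement -/
theorem growth_sq (h : ∃ (x₀ : M) (c : ℝ), ∀ r > 0,
      m (Metric.ball x₀ r) ≤ ENNReal.ofReal (c * Real.exp (c * r))) :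
    ∃ (x₀ : M) (c : ℝ), ∀ r > 0,
      m (Metric.ball x₀ r) ≤ ENNReal.ofReal (c * Real.exp (c * r ^ 2)) := by
  obtain ⟨x₀, c, hc⟩ := h
  have h0 : 0 ≤ |c| := abs_nonneg c
  have hE : 1 ≤ Real.exp |c| := Real.one_le_exp h0
  refine ⟨x₀, |c| * Real.exp |c|, fun r hr => (hc r hr).trans (ENNReal.ofReal_le_ofReal ?_)⟩
  have h1 : c * Real.exp (c * r) ≤ |c| * Real.exp (|c| * (1 + r ^ 2)) := by
    have h2 : c * r ≤ |c| * (1 + r ^ 2) := by
      have h3 : c * r ≤ |c| * r := mul_le_mul_of_nonneg_right (le_abs_self c) hr.le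
      have h4 : r ≤ 1 + r ^ 2 := by nlinarith [sq_nonneg (r - 1)]
      exact h3.trans (mul_le_mul_of_nonneg_left h4 h0)
    calc c * Real.exp (c * r) ≤ |c| * Real.exp (c * r) :=
          mul_le_mul_of_nonneg_right (le_abs_self c) (Real.exp_pos _).le
      _ ≤ |c| * Real.exp (|c| * (1 + r ^ 2)) :=
          mul_le_mul_of_nonneg_left (Real.exp_le_exp.2 h2) h0
  refine h1.trans ?_
  have h5 : Real.exp (|c| * (1 + r ^ 2)) = Real.exp |c| * Real.exp (|c| * r ^ 2) := by
    rw [← Real.exp_add]; ring_nf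
  have h6 : |c| * r ^ 2 ≤ |c| * Real.exp |c| * r ^ 2 := by
    apply mul_le_mul_of_nonneg_right _ (sq_nonneg r)
    nlinarith
  rw [h5, ← mul_assoc]
  exact mul_le_mul_of_nonneg_left (Real.exp_le_exp.2 h6) (by positivity)

/-- **block Z**: `NSp` and `BE(K,n)` (classes) give `T.IsRCD m K n`. -/
theorem isRCD_of_NSp {n : ℕ} {K θ : ℝ} (h : RA.NSp m n K θ) (hb : (sob m).BE K n) :
    T.IsRCD m K n :=
  T_of_S (S_isRCD_of h.quadratic (growth_sq h.growth) h.s2l hb)

end B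

/-- The final statement without any hypothesis: for a complete separable metric space, condition
(A) and condition (B) of the problem file are equivalent. -/
def FinalThm : Prop :=
  ∀ (M : Type u) [MetricSpace M] [CompleteSpace M] [SecondCountableTopology M]
    [MeasurableSpace M] [BorelSpace M] (n : ℕ), 2 ≤ n → ∀ κ : ℝ,
    (T.IsAlexN M n κ ↔ T.IsSecN M n κ)

/-- The two halves of RCDA give: Alexandrov of dimension `n` implies `RCD((n-1)κ,n)`. -/
theorem rcd_of_parts (hGL : RA.PartGL.{u}) (hN : RA.PartN.{u}) (M : Type u) [MetricSpace M]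
    [CompleteSpace M] [SecondCountableTopology M] [MeasurableSpace M] [BorelSpace M] (n : ℕ)
    (hn : 2 ≤ n) (κ : ℝ) (hA : T.IsAlexN M n κ) :
    (μH[n] : Measure M).IsOpenPosMeasure ∧ T.IsRCD (μH[n] : Measure M) ((n - 1) * κ) n := by
  obtain ⟨θ, h⟩ := hGL M n κ hn hA.1 hA.2
  exact ⟨h.full, isRCD_of_NSp h (hN M _ n _ θ h)⟩

/-- The final assembly of RCDA. -/
theorem final_of_parts (hGL : RA.PartGL.{u}) (hN : RA.PartN.{u}) (hM : H326.MainThm.{u}) :
    FinalThm.{u} := by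
  intro M _ _ _ _ _ n hn κ
  constructor
  · intro hA
    obtain ⟨h1, h2⟩ := rcd_of_parts hGL hN M n hn κ hA
    exact (hM M n hn κ).2 ⟨hA, h1, h2⟩
  · intro h
    exact ((hM M n hn κ).1 h).1

end Vale.Agent.P233.H131.Z
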