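import Vale.Agent.P233.Bd3.B1

/-!
P233, RCDA block H5 (helper131), first half: the Hopf-Lax semigroup on a proper metric space,
`Q_s f (x) = inf_y f(y) + d(x,y)²/(2s)` for a bounded Lipschitz function `f`.
-/

set_option linter.all false

open MeasureTheory Filter Topology Set
open scoped ENNReal NNReal

namespace Vale.Agent.P233.H131

open Vale.Agent.P233.Met

variable {M : Type*} [MetricSpace M]

/-- bounded and `L`-Lipschitz -/
structure BL (f : M → ℝ) (B L : ℝ) : Prop where
  L0 : 0 ≤ L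
  bd : ∀ x, |f x| ≤ B
  lip : ∀ x y, |f x - f y| ≤ L * dist x y

/-- the Hopf-Lax semigroup, with `Q_0 f = f` -/
noncomputable def qq (f : M → ℝ) (s : ℝ) (x : M) : ℝ :=
  if 0 < s then ⨅ y, (f y + dist x y ^ 2 / (2 * s)) else f x

/-- `y` is a minimiser for `Q_s f (x)` -/
def Mn (f : M → ℝ) (s : ℝ) (x y : M) : Prop :=
  ∀ z, f y + dist x y ^ 2 / (2 * s) ≤ f z + dist x z ^ 2 / (2 * s)

section

variable {f : M → ℝ} {B L : ℝ} (hf : BL f B L)

include hf

theorem BL.cont : Continuous f := by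
  have : LipschitzWith ⟨L, hf.L0⟩ f := LipschitzWith.of_dist_le_mul fun x y => by
    rw [Real.dist_eq]; exact hf.lip x y
  exact this.continuous

theorem BL.isLip : IsLip f := ⟨⟨L, hf.L0⟩, LipschitzWith.of_dist_le_mul fun x y => by
    rw [Real.dist_eq]; exact hf.lip x y⟩

theorem BL.bddBelow {s : ℝ} (hs : 0 < s) (x : M) :
    BddBelow (range fun y => f y + dist x y ^ 2 / (2 * s)) := by
  refine ⟨-B, ?_⟩
  rintro _ ⟨y, rfl⟩
  have h1 := (abs_le.1 (hf.bd y)).1
  have h2 : 0 ≤ dist x y ^ 2 / (2 * s) := by positivity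
  show -B ≤ f y + dist x y ^ 2 / (2 * s)
  linarith

theorem qq_le {s : ℝ} (hs : 0 < s) (x y : M) : qq f s x ≤ f y + dist x y ^ 2 / (2 * s) := by
  rw [qq, if_pos hs]
  exact ciInf_le (hf.bddBelow hs x) y

theorem Mn.eq {s : ℝ} (hs : 0 < s) {x y : M} (h : Mn f s x y) :
    qq f s x = f y + dist x y ^ 2 / (2 * s) := by
  refine le_antisymm (qq_le hf hs x y) ?_
  rw [qq, if_pos hs]
  haveI : Nonempty M := ⟨x⟩
  exact le_ciInf h

theorem Mn.dist_le {s : ℝ} (hs : 0 < s) {x y : M} (h : Mn f s x y) : dist x y ≤ 2 * s * L := by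
  have h1 := h x
  rw [dist_self, zero_pow two_ne_zero, zero_div, add_zero] at h1
  have h2 := (le_abs_self _).trans (hf.lip x y)
  have h3 : dist x y ^ 2 / (2 * s) ≤ L * dist x y := by linarith
  rw [div_le_iff₀ (by positivity)] at h3
  rcases (dist_nonneg (x := x) (y := y)).eq_or_lt with h0 | h0
  · rw [← h0]
    have := hf.L0
    positivity
  · have h4 : dist x y * dist x y ≤ dist x y * (2 * s * L) := by nlinarith
    exact le_of_mul_le_mul_left h4 h0

theorem exists_Mn [ProperSpace M] {s : ℝ} (hs : 0 < s) (x : M) : ∃ y, Mn f s x y := by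
  have hL := hf.L0
  have hK : IsCompact (Metric.closedBall x (2 * s * L)) := isCompact_closedBall x _
  have hc : ContinuousOn (fun y => f y + dist x y ^ 2 / (2 * s))
      (Metric.closedBall x (2 * s * L)) := by
    have := hf.cont
    fun_prop
  obtain ⟨y, hy, hm⟩ := hK.exists_isMinOn
    ⟨x, Metric.mem_closedBall_self (by positivity)⟩ hc
  refine ⟨y, fun z => ?_⟩
  by_cases hz : z ∈ Metric.closedBall x (2 * s * L)
  · exact hm hz
  · have h1 : f y + dist x y ^ 2 / (2 * s) ≤ f x + dist x x ^ 2 / (2 * s) :=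
      hm (Metric.mem_closedBall_self (by positivity))
    rw [dist_self, zero_pow two_ne_zero, zero_div, add_zero] at h1
    rw [Metric.mem_closedBall, not_le, dist_comm] at hz
    have h2 := (le_abs_self _).trans (hf.lip x z)
    have h3 : L * dist x z ≤ dist x z ^ 2 / (2 * s) := by
      rw [le_div_iff₀ (by positivity)]
      have h4 : 0 ≤ dist x z := dist_nonneg
      nlinarith
    linarith

theorem qq_le_self {s : ℝ} (x : M) : qq f s x ≤ f x := by
  by_cases hs : 0 < s
  · have := qq_le hf hs x x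
    rwa [dist_self, zero_pow two_ne_zero, zero_div, add_zero] at this
  · rw [qq, if_neg hs]

/-- `f - Q_s f ≤ s L²/2` -/
theorem sub_qq_le [ProperSpace M] {s : ℝ} (hs : 0 ≤ s) (x : M) : f x - qq f s x ≤ s * L ^ 2 / 2 := by
  rcases hs.eq_or_lt with rfl | hs
  · simp [qq]
  obtain ⟨y, hy⟩ := exists_Mn hf hs x
  rw [hy.eq hf hs]
  have h2 := (le_abs_self _).trans (hf.lip x y)
  have h3 : L * dist x y - dist x y ^ 2 / (2 * s) ≤ s * L ^ 2 / 2 := by
    have h4 : s * L ^ 2 / 2 - (L * dist x y - dist x y ^ 2 / (2 * s))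
        = (dist x y - s * L) ^ 2 / (2 * s) := by
      field_simp
      ring
    have h5 : 0 ≤ (dist x y - s * L) ^ 2 / (2 * s) := by positivity
    linarith
  linarith

theorem qq_ge_of {s c : ℝ} (hc : ∀ y, c ≤ f y) (x : M) : c ≤ qq f s x := by
  by_cases hs : 0 < s
  · rw [qq, if_pos hs]
    haveI : Nonempty M := ⟨x⟩
    refine le_ciInf fun y => ?_
    have h2 : 0 ≤ dist x y ^ 2 / (2 * s) := by positivity
    linarith [hc y]
  · rw [qq, if_neg hs]
    exact hc x

theorem abs_qq_le (s : ℝ) (x : M) : |qq f s x| ≤ B := by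
  rw [abs_le]
  exact ⟨qq_ge_of hf (fun y => (abs_le.1 (hf.bd y)).1) x,
    (qq_le_self hf x).trans (abs_le.1 (hf.bd x)).2⟩

/-- the basic one-sided bound -/
theorem qq_sub_le {s : ℝ} (hs : 0 < s) {x y z : M} (h : Mn f s x z) :
    qq f s y - qq f s x ≤ dist y x * (dist x z / s + dist y x / (2 * s)) := by
  have h1 := qq_le hf hs y z
  rw [h.eq hf hs]
  have h2 : dist y z ≤ dist y x + dist x z := dist_triangle _ _ _
  have h3 : dist y z ^ 2 ≤ (dist y x + dist x z) ^ 2 := pow_le_pow_left₀ dist_nonneg h2 2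
  have h4 : dist y x * (dist x z / s + dist y x / (2 * s))
      = (dist y x + dist x z) ^ 2 / (2 * s) - dist x z ^ 2 / (2 * s) := by
    field_simp
    ring
  have h5 : dist y z ^ 2 / (2 * s) ≤ (dist y x + dist x z) ^ 2 / (2 * s) := by gcongr
  rw [h4]
  linarith

theorem qq_lip_aux [ProperSpace M] {s : ℝ} (hs : 0 ≤ s) (x y : M) :
    qq f s y - qq f s x ≤ 3 * L * dist y x := by
  have hL := hf.L0
  have hd : 0 ≤ dist y x := dist_nonneg
  rcases hs.eq_or_lt with rfl | hs
  · simp only [qq, lt_irrefl, if_false]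
    have h1 := (le_abs_self _).trans (hf.lip y x)
    nlinarith [mul_nonneg hL hd]
  obtain ⟨z, hz⟩ := exists_Mn hf hs x
  have h1 := qq_sub_le hf hs (y := y) hz
  have h2 := hz.dist_le hf hs
  by_cases hc : dist y x ≤ 2 * s * L
  · have h3 : dist x z / s ≤ 2 * L := by
      rw [div_le_iff₀ hs]; linarith
    have h4 : dist y x / (2 * s) ≤ L := by
      rw [div_le_iff₀ (by positivity)]; linarith
    calc qq f s y - qq f s x ≤ dist y x * (dist x z / s + dist y x / (2 * s)) := h1
      _ ≤ dist y x * (2 * L + L) := by gcongr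
      _ = 3 * L * dist y x := by ring
  · rw [not_le] at hc
    have h3 := qq_le_self hf (s := s) y
    have h4 := sub_qq_le hf hs.le x
    have h5 := (le_abs_self _).trans (hf.lip y x)
    have h6 : s * L ^ 2 / 2 ≤ L * dist y x := by nlinarith
    nlinarith [mul_nonneg hL hd]

/-- `Q_s f` is `3L`-Lipschitz -/
theorem qq_lip [ProperSpace M] {s : ℝ} (hs : 0 ≤ s) (x y : M) :
    |qq f s x - qq f s y| ≤ 3 * L * dist x y := by
  rw [abs_le]
  have h1 := qq_lip_aux hf hs x y
  have h2 := qq_lip_aux hf hs y x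
  rw [dist_comm] at h1
  constructor <;> linarith

theorem BL.qq [ProperSpace M] {s : ℝ} (hs : 0 ≤ s) : BL (qq f s) B (3 * L) :=
  ⟨by have := hf.L0; positivity, abs_qq_le hf s, qq_lip hf hs⟩

/-- monotone in time -/
theorem qq_anti [ProperSpace M] {s r : ℝ} (hs : 0 ≤ s) (hsr : s ≤ r) (x : M) :
    qq f r x ≤ qq f s x := by
  rcases hs.eq_or_lt with rfl | hs
  · have : qq f 0 x = f x := by simp [H131.qq]
    rw [this]
    exact qq_le_self hf x
  obtain ⟨z, hz⟩ := exists_Mn hf hs x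
  rw [hz.eq hf hs]
  refine (qq_le hf (hs.trans_le hsr) x z).trans ?_
  gcongr

/-- `Q_s f` is Lipschitz in time, up to `s = 0` -/
theorem qq_time_aux [ProperSpace M] {s r : ℝ} (hs : 0 ≤ s) (hsr : s ≤ r) (x : M) :
    qq f s x - qq f r x ≤ 4 * L ^ 2 * (r - s) := by
  have hL := hf.L0
  rcases hsr.eq_or_lt with rfl | hlt
  · simp
  have hr : 0 < r := hs.trans_lt hlt
  by_cases hc : r / 2 ≤ s
  · have hs' : 0 < s := by linarith
    obtain ⟨z, hz⟩ := exists_Mn hf hr x
    have h1 := qq_le hf hs' x z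
    have h2 := hz.dist_le hf hr
    rw [hz.eq hf hr]
    have h3 : dist x z ^ 2 / (2 * s) - dist x z ^ 2 / (2 * r)
        = dist x z ^ 2 * (r - s) / (2 * s * r) := by
      field_simp
    have h4 : dist x z ^ 2 ≤ (2 * r * L) ^ 2 := pow_le_pow_left₀ dist_nonneg h2 2
    have h5 : dist x z ^ 2 * (r - s) / (2 * s * r) ≤ 4 * L ^ 2 * (r - s) := by
      rw [div_le_iff₀ (by positivity)]
      have h6 : dist x z ^ 2 * (r - s) ≤ (2 * r * L) ^ 2 * (r - s) := by
        apply mul_le_mul_of_nonneg_right h4; linarith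
      have h7 : (2 * r * L) ^ 2 * (r - s) ≤ 4 * L ^ 2 * (r - s) * (2 * s * r) := by
        have h8 : 0 ≤ 4 * L ^ 2 * (r - s) * r := by
          have : 0 ≤ r - s := by linarith
          positivity
        have h9 : r ≤ 2 * s := by linarith
        nlinarith [mul_le_mul_of_nonneg_left h9 h8]
      linarith
    linarith
  · rw [not_le] at hc
    have h1 := qq_le_self hf (s := s) x
    have h2 := sub_qq_le hf hr.le x
    have h3 : r * L ^ 2 / 2 ≤ 4 * L ^ 2 * (r - s) := by nlinarith [sq_nonneg L]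
    linarith

theorem qq_time [ProperSpace M] {s r : ℝ} (hs : 0 ≤ s) (hr : 0 ≤ r) (x : M) :
    |qq f s x - qq f r x| ≤ 4 * L ^ 2 * |s - r| := by
  rcases le_total s r with h | h
  · have h1 := qq_time_aux hf hs h x
    have h2 := qq_anti hf hs h x
    rw [abs_of_nonneg (by linarith), abs_of_nonpos (by linarith)]
    linarith
  · have h1 := qq_time_aux hf hr h x
    have h2 := qq_anti hf hr h x
    rw [abs_of_nonpos (by linarith), abs_of_nonneg (by linarith)]
    linarith

/-- joint continuity -/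
theorem qq_cont [ProperSpace M] :
    ContinuousOn (fun z : ℝ × M => qq f z.1 z.2) (Ici 0 ×ˢ univ) := by
  have hL := hf.L0
  rintro ⟨s, x⟩ ⟨hs, -⟩
  rw [ContinuousWithinAt, Metric.tendsto_nhdsWithin_nhds]
  intro ε hε
  refine ⟨ε / (4 * L ^ 2 + 3 * L + 1), by positivity, ?_⟩
  rintro ⟨r, y⟩ ⟨hr, -⟩ hd
  rw [Prod.dist_eq, max_lt_iff] at hd
  have h1 := qq_time hf (x := y) (show (0 : ℝ) ≤ r from hr) (show (0 : ℝ) ≤ s from hs)
  have h2 := qq_lip hf (show (0 : ℝ) ≤ s from hs) y x
  have h3 : |r - s| ≤ ε / (4 * L ^ 2 + 3 * L + 1) := by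
    have := hd.1.le
    rwa [Real.dist_eq] at this
  have h4 : dist y x ≤ ε / (4 * L ^ 2 + 3 * L + 1) := hd.2.le
  rw [Real.dist_eq]
  show |qq f r y - qq f s x| < ε
  have h5 : |qq f r y - qq f s x| ≤ |qq f r y - qq f s y| + |qq f s y - qq f s x| := abs_sub_le _ _ _
  have h6 : 4 * L ^ 2 * |r - s| ≤ 4 * L ^ 2 * (ε / (4 * L ^ 2 + 3 * L + 1)) := by gcongr
  have h7 : 3 * L * dist y x ≤ 3 * L * (ε / (4 * L ^ 2 + 3 * L + 1)) := by gcongr
  have h8 : 4 * L ^ 2 * (ε / (4 * L ^ 2 + 3 * L + 1)) + 3 * L * (ε / (4 * L ^ 2 + 3 * L + 1))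
      = ε - ε / (4 * L ^ 2 + 3 * L + 1) := by
    field_simp
    ring
  have h9 : 0 < ε / (4 * L ^ 2 + 3 * L + 1) := by positivity
  linarith

/-- the largest minimiser distance -/
theorem exists_far [ProperSpace M] {s : ℝ} (hs : 0 < s) (x : M) :
    ∃ y, Mn f s x y ∧ ∀ z, Mn f s x z → dist x z ≤ dist x y := by
  have hK : IsCompact {y | Mn f s x y} := by
    refine (isCompact_closedBall x (2 * s * L)).of_isClosed_subset ?_ ?_
    · have : {y | Mn f s x y} = ⋂ z, {y | f y + dist x y ^ 2 / (2 * s) ≤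
          f z + dist x z ^ 2 / (2 * s)} := by
        ext y; simp [Mn]
      rw [this]
      refine isClosed_iInter fun z => isClosed_le ?_ continuous_const
      have := hf.cont
      fun_prop
    · intro y hy
      rw [Metric.mem_closedBall, dist_comm]
      exact Mn.dist_le hf hs hy
  obtain ⟨y, hy, hm⟩ := hK.exists_isMaxOn (exists_Mn hf hs x)
    (f := fun y => dist x y) (by fun_prop)
  exact ⟨y, hy, fun z hz => hm hz⟩

/-- upper semicontinuity of the minimiser distance -/
theorem dist_usc [ProperSpace M] {s : ℝ} (hs : 0 < s) {x : M} {D : ℝ}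
    (hD : ∀ z, Mn f s x z → dist x z ≤ D) {ε : ℝ} (hε : 0 < ε) :
    ∀ᶠ y in 𝓝 x, ∀ z, Mn f s y z → dist y z < D + ε := by
  have hL := hf.L0
  by_contra hcon
  rw [Filter.not_eventually] at hcon
  -- a sequence
  have h1 : ∀ n : ℕ, ∃ y z, dist y x < 1 / ((n : ℝ) + 1) ∧ Mn f s y z ∧ D + ε ≤ dist y z := by
    intro n
    have h2 : ∀ᶠ y in 𝓝 x, dist y x < 1 / ((n : ℝ) + 1) :=
      Metric.ball_mem_nhds x (by positivity)
    obtain ⟨y, hy1, hy2⟩ := (hcon.and_eventually h2).exists
    push Not at hy1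
    obtain ⟨z, hz1, hz2⟩ := hy1
    exact ⟨y, z, hy2, hz1, hz2⟩
  choose y z hy hz hdz using h1
  have hyx : Tendsto y atTop (𝓝 x) := by
    rw [tendsto_iff_dist_tendsto_zero]
    exact squeeze_zero (fun _ => dist_nonneg) (fun n => (hy n).le)
      tendsto_one_div_add_atTop_nhds_zero_nat
  have hzb : ∀ n, z n ∈ Metric.closedBall x (2 * s * L + 1) := by
    intro n
    rw [Metric.mem_closedBall]
    have h3 := (hz n).dist_le hf hs
    have h4 : dist (y n) x ≤ 1 := by
      refine (hy n).le.trans ?_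
      rw [div_le_one (by positivity)]
      have : (0 : ℝ) ≤ n := Nat.cast_nonneg n
      linarith
    have h5 := dist_triangle (z n) (y n) x
    rw [dist_comm (z n) (y n)] at h5
    linarith
  obtain ⟨w, -, φ, hφ, hw⟩ := (isCompact_closedBall x (2 * s * L + 1)).tendsto_subseq hzb
  have hy' : Tendsto (fun n => y (φ n)) atTop (𝓝 x) := hyx.comp hφ.tendsto_atTop
  have hc := hf.cont
  have hlim : ∀ v : M, Tendsto (fun n => f v + dist (y (φ n)) v ^ 2 / (2 * s)) atTop
      (𝓝 (f v + dist x v ^ 2 / (2 * s))) := by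
    intro v
    have : Continuous fun y : M => f v + dist y v ^ 2 / (2 * s) := by fun_prop
    exact (this.tendsto x).comp hy'
  have hlim2 : Tendsto (fun n => f (z (φ n)) + dist (y (φ n)) (z (φ n)) ^ 2 / (2 * s)) atTop
      (𝓝 (f w + dist x w ^ 2 / (2 * s))) := by
    have h6 : Tendsto (fun n => (y (φ n), z (φ n))) atTop (𝓝 (x, w)) := hy'.prodMk_nhds hw
    have h7 : Continuous fun p : M × M => f p.2 + dist p.1 p.2 ^ 2 / (2 * s) := by fun_prop
    exact (h7.tendsto (x, w)).comp h6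
  have hmin : Mn f s x w := fun v =>
    le_of_tendsto_of_tendsto' hlim2 (hlim v) fun n => hz (φ n) v
  have h8 : D + ε ≤ dist x w := by
    have h9 : Tendsto (fun n => dist (y (φ n)) (z (φ n))) atTop (𝓝 (dist x w)) := hy'.dist hw
    exact ge_of_tendsto' h9 fun n => hdz (φ n)
  have := hD w hmin
  linarith

/-- **The pointwise Hamilton-Jacobi inequality**, at every point and every time `s > 0`: with `D`
the largest minimiser distance, the local Lipschitz constant of `Q_s f` at `x` is at most `D/s`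
and `Q_r f x - Q_s f x ≤ - D² (r-s)/(2rs)` for `r > s`. -/
theorem exists_D [ProperSpace M] {s : ℝ} (hs : 0 < s) (x : M) :
    ∃ D : ℝ, 0 ≤ D ∧ D ≤ 2 * s * L ∧ LipBd (qq f s) x (D / s) ∧
      ∀ r, s ≤ r → qq f r x - qq f s x ≤ -(D ^ 2 * (r - s) / (2 * r * s)) := by
  obtain ⟨y, hy, hm⟩ := exists_far hf hs x
  refine ⟨dist x y, dist_nonneg, hy.dist_le hf hs, ?_, fun r hr => ?_⟩
  · intro c hc
    set ε : ℝ := (c - dist x y / s) / 2 with hε
    have hε0 : 0 < ε := by rw [hε]; linarith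
    have h1 := dist_usc hf hs hm (mul_pos hs hε0)
    have h2 : ∀ᶠ z in 𝓝 x, dist z x < 2 * s * ε := Metric.ball_mem_nhds x (by positivity)
    filter_upwards [h1, h2] with z hz1 hz2
    obtain ⟨w, hw⟩ := exists_Mn hf hs z
    have h3 := hz1 w hw
    have a1 := qq_sub_le hf hs (y := z) hy
    have a2 := qq_sub_le hf hs (y := x) hw
    have a3 : dist z x / (2 * s) ≤ ε := by
      rw [div_le_iff₀ (by positivity)]; linarith
    have a4 : dist z w / s ≤ dist x y / s + ε := by
      rw [div_add' _ _ _ hs.ne', div_le_div_iff_of_pos_right hs]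
      linarith
    have hc2 : c = dist x y / s + ε + ε := by rw [hε]; ring
    have hd : 0 ≤ dist z x := dist_nonneg
    rw [abs_le]
    rw [dist_comm x z] at a2
    constructor
    · have : dist z x * (dist z w / s + dist z x / (2 * s)) ≤ c * dist z x := by
        rw [mul_comm, hc2]
        gcongr
      linarith
    · have : dist z x * (dist x y / s + dist z x / (2 * s)) ≤ c * dist z x := by
        rw [mul_comm, hc2]
        apply mul_le_mul_of_nonneg_right _ hd
        linarith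
      linarith
  · have hr0 : 0 < r := hs.trans_le hr
    have h1 := qq_le hf hr0 x y
    rw [hy.eq hf hs]
    have h2 : dist x y ^ 2 * (r - s) / (2 * r * s)
        = dist x y ^ 2 / (2 * s) - dist x y ^ 2 / (2 * r) := by
      field_simp
    rw [h2]
    linarith

/-- the form used in Davies' estimate: `g` is any bound of the slope of `Q_s f` from BELOW of all
bounds, that is `g ≤ c` whenever `LipBd (Q_s f) x c`. -/
theorem hj [ProperSpace M] {s : ℝ} (hs : 0 < s) (x : M) {g : ℝ} (hg0 : 0 ≤ g)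
    (hg : ∀ c, 0 ≤ c → LipBd (qq f s) x c → g ≤ c) {η : ℝ} (hη : 0 < η) :
    ∀ᶠ r in 𝓝[>] s, qq f r x - qq f s x ≤ (r - s) * (-(1 / 2) * g ^ 2 + η) := by
  obtain ⟨D, hD0, hD1, hD2, hD3⟩ := exists_D hf hs x
  have h1 : g ≤ D / s := hg _ (by positivity) hD2
  have h2 : g ^ 2 ≤ (D / s) ^ 2 := pow_le_pow_left₀ hg0 h1 2
  have h3 : Tendsto (fun r : ℝ => -(D ^ 2 / (2 * r * s))) (𝓝[>] s) (𝓝 (-(D ^ 2 / (2 * s * s)))) := by
    have : ContinuousAt (fun r : ℝ => -(D ^ 2 / (2 * r * s))) s := by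
      apply ContinuousAt.neg
      apply ContinuousAt.div continuousAt_const (by fun_prop)
      positivity
    exact this.tendsto.mono_left nhdsWithin_le_nhds
  have h4 : -(D ^ 2 / (2 * s * s)) < -(1 / 2) * g ^ 2 + η := by
    have : D ^ 2 / (2 * s * s) = (D / s) ^ 2 / 2 := by field_simp
    rw [this]
    linarith
  filter_upwards [h3.eventually (gt_mem_nhds h4), self_mem_nhdsWithin] with r hr1 hr2
  have hr2 : s < r := hr2
  have h5 := hD3 r hr2.le
  have h6 : -(D ^ 2 * (r - s) / (2 * r * s)) = (r - s) * -(D ^ 2 / (2 * r * s)) := by ring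
  rw [h6] at h5
  exact h5.trans (mul_le_mul_of_nonneg_left hr1.le (by linarith))

/-- for (K2): the initial slope -/
theorem sub_qq_small [ProperSpace M] {x : M} {l : ℝ} (hl : 0 ≤ l)
    (h : ∀ᶠ y in 𝓝 x, |f y - f x| ≤ l * dist y x) :
    ∀ᶠ s in 𝓝[>] (0 : ℝ), f x - qq f s x ≤ s * l ^ 2 / 2 := by
  have hL := hf.L0
  obtain ⟨δ, hδ, hball⟩ := Metric.eventually_nhds_iff.1 h
  have h1 : ∀ᶠ s in 𝓝[>] (0 : ℝ), s < δ / (2 * (L + 1)) :=
    (gt_mem_nhds (by positivity)).filter_mono nhdsWithin_le_nhds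
  filter_upwards [h1, self_mem_nhdsWithin] with s hs1 hs2
  have hs : 0 < s := hs2
  obtain ⟨y, hy⟩ := exists_Mn hf hs x
  rw [hy.eq hf hs]
  have h2 := hy.dist_le hf hs
  have h3 : dist y x < δ := by
    rw [dist_comm]
    refine lt_of_le_of_lt h2 ?_
    rw [lt_div_iff₀ (by positivity)] at hs1
    nlinarith
  have h4 := hball h3
  have h5 : f x - f y ≤ l * dist x y := by
    rw [dist_comm x y]
    exact (by linarith [(abs_le.1 h4).1] : f x - f y ≤ l * dist y x)
  have h6 : l * dist x y - dist x y ^ 2 / (2 * s) ≤ s * l ^ 2 / 2 := by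
    have h7 : s * l ^ 2 / 2 - (l * dist x y - dist x y ^ 2 / (2 * s))
        = (dist x y - s * l) ^ 2 / (2 * s) := by
      field_simp
      ring
    have h8 : 0 ≤ (dist x y - s * l) ^ 2 / (2 * s) := by positivity
    linarith
  linarith

/-- constant outside a ball -/
theorem qq_const [ProperSpace M] {o : M} {R c T : ℝ} (hc : ∀ y, R ≤ dist o y → f y = c) {s : ℝ}
    (hs : 0 ≤ s) (hT : s ≤ T) {x : M} (hx : R + 2 * T * L ≤ dist o x) : qq f s x = c := by
  have hL := hf.L0
  rcases hs.eq_or_lt with rfl | hs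
  · simp only [H131.qq, lt_irrefl, if_false]
    refine hc x ?_
    have : 0 ≤ 2 * T * L := by positivity
    linarith
  obtain ⟨y, hy⟩ := exists_Mn hf hs x
  have h1 := hy.dist_le hf hs
  have h2 : R ≤ dist o y := by
    have h3 := dist_triangle o y x
    rw [dist_comm y x] at h3
    have h4 : 2 * s * L ≤ 2 * T * L := by gcongr
    linarith
  have h5 := hy.eq hf hs
  rw [hc y h2] at h5
  have h6 : 0 ≤ dist x y ^ 2 / (2 * s) := by positivity
  have h7 := qq_le_self hf (s := s) x
  have h8 : f x = c := by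
    refine hc x ?_
    have : 0 ≤ 2 * T * L := by
      have : 0 ≤ T := hs.le.trans hT
      positivity
    linarith
  linarith

end

/-- lower bound -/
theorem le_qq {f : M → ℝ} {T : ℝ} (hT : 0 < T) {y : M} {c : ℝ}
    (h : ∀ x, c ≤ f x + dist y x ^ 2 / (2 * T)) : c ≤ qq f T y := by
  rw [qq, if_pos hT]
  haveI : Nonempty M := ⟨y⟩
  exact le_ciInf h

end Vale.Agent.P233.H131
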