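import Vale.Agent.P233.H131.Op

/-!
P233, block T1 (helper131), part 2: the operators of part 1 depend measurably on a parameter.
Mathlib only.
-/

set_option linter.all false

open MeasureTheory Filter Topology
open scoped ENNReal NNReal InnerProductSpace

namespace Vale.Agent.P233.H131

/-- indices of rational combinations -/
abbrev RI : Type := Σ s : Finset ℕ, (s → ℚ)

section
variable {E : Type*} [NormedAddCommGroup E] [InnerProductSpace ℝ E]

/-- a rational combination -/
noncomputable def rc (v : ℕ → E) (k : RI) : E := ∑ i, (k.2 i : ℝ) • v i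

theorem rc_mem_span (v : ℕ → E) (k : RI) : rc v k ∈ Submodule.span ℝ (Set.range v) :=
  Submodule.sum_mem _ fun i _ => Submodule.smul_mem _ _ (Submodule.subset_span ⟨i, rfl⟩)

theorem rc_mem_cspan (v : ℕ → E) (k : RI) : rc v k ∈ cspan v :=
  Submodule.le_topologicalClosure _ (rc_mem_span v k)

/-- rational combinations are dense in the closed span -/
theorem rc_dense (v : ℕ → E) {y : E} (hy : y ∈ cspan v) {δ : ℝ} (hδ : 0 < δ) :
    ∃ k : RI, ‖y - rc v k‖ < δ := by
  have hy' : y ∈ closure ((Submodule.span ℝ (Set.range v) : Submodule ℝ E) : Set E) := by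
    rw [← Submodule.topologicalClosure_coe]; exact hy
  obtain ⟨z, hz, hyz⟩ := Metric.mem_closure_iff.1 hy' (δ / 2) (by linarith)
  rw [SetLike.mem_coe, ← Finsupp.range_linearCombination] at hz
  obtain ⟨c, rfl⟩ := LinearMap.mem_range.1 hz
  have hd : DenseRange (Pi.map fun (_ : c.support) (q : ℚ) => (q : ℝ)) :=
    DenseRange.piMap fun _ => Rat.denseRange_cast
  have hcont : Continuous fun r : c.support → ℝ => ∑ i, r i • v i := by fun_prop
  have h1 : ∀ᶠ r in 𝓝 (fun i : c.support => c i), ‖(∑ i : c.support, c i • v i)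
      - ∑ i : c.support, r i • v i‖ < δ / 2 := by
    have h2 : Tendsto (fun r : c.support → ℝ => ‖(∑ i : c.support, c i • v i)
          - ∑ i : c.support, r i • v i‖)
        (𝓝 (fun i : c.support => c i)) (𝓝 ‖(∑ i : c.support, c i • v i)
          - ∑ i : c.support, c i • v i‖) := (Continuous.tendsto (by fun_prop) _)
    rw [sub_self, norm_zero] at h2
    exact h2.eventually (gt_mem_nhds (by linarith))
  obtain ⟨r, hr, ⟨q, rfl⟩⟩ := mem_closure_iff_nhds.1 (hd (fun i => c i)) _ h1
  refine ⟨⟨c.support, q⟩, ?_⟩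
  have h3 : Finsupp.linearCombination ℝ v c = ∑ i : c.support, c i • v i := by
    rw [Finsupp.linearCombination_apply, Finsupp.sum, ← Finset.sum_coe_sort c.support]
  have h4 : ‖(∑ i : c.support, c i • v i) - rc v ⟨c.support, q⟩‖ < δ / 2 := hr
  rw [h3, dist_eq_norm] at hyz
  calc ‖y - rc v ⟨c.support, q⟩‖
      = ‖(y - ∑ i : c.support, c i • v i) + ((∑ i : c.support, c i • v i)
        - rc v ⟨c.support, q⟩)‖ := by congr 1; abel
    _ ≤ _ := norm_add_le _ _
    _ < δ := by linarith

theorem IsOp.map_rc {v w : ℕ → E} {T : E →L[ℝ] E} (h : IsOp v w T) (k : RI) :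
    T (rc v k) = rc w k := by
  unfold rc
  rw [map_sum]
  refine Finset.sum_congr rfl fun i _ => ?_
  rw [map_smul, h.map]

variable {M : Type*} [MeasurableSpace M]

theorem stronglyMeasurable_rc {v : ℕ → M → E} (hv : ∀ i, StronglyMeasurable (v i)) (k : RI) :
    StronglyMeasurable fun x => rc (fun i => v i x) k := by
  unfold rc
  have : (fun x => ∑ i, (k.2 i : ℝ) • v i x) = ∑ i, fun x => (k.2 i : ℝ) • v i x := by
    ext x; simp
  rw [this]
  exact Finset.stronglyMeasurable_sum _ fun i _ => (hv i).const_smul _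

/-- a function that is chosen measurably from countably many ones -/
theorem stronglyMeasurable_choice {F : ℕ → M → E} (hF : ∀ k, StronglyMeasurable (F k))
    {n : M → ℕ} (hn : Measurable n) : StronglyMeasurable fun x => F (n x) x := by
  borelize E
  rw [stronglyMeasurable_iff_measurable_separable]
  constructor
  · have h1 : Measurable fun p : M × ℕ => F p.2 p.1 :=
      measurable_from_prod_countable_left fun k => (hF k).measurable
    exact h1.comp (measurable_id.prodMk hn)
  · have h1 : TopologicalSpace.IsSeparable (⋃ k, Set.range (F k)) :=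
      TopologicalSpace.isSeparable_iUnion.2 fun k => (stronglyMeasurable_iff_measurable_separable.1 (hF k)).2
    refine h1.mono ?_
    rintro _ ⟨x, rfl⟩
    exact Set.mem_iUnion.2 ⟨n x, x, rfl⟩

variable [CompleteSpace E]

/-- the operators depend measurably on the parameter -/
theorem stronglyMeasurable_op {v w : ℕ → M → E} (hv : ∀ i, StronglyMeasurable (v i))
    (hw : ∀ i, StronglyMeasurable (w i)) {T : M → E →L[ℝ] E}
    (hT : ∀ x, IsOp (fun i => v i x) (fun i => w i x) (T x)) (u : E) :
    StronglyMeasurable fun x => T x u := by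
  classical
  obtain ⟨c, hc⟩ := exists_surjective_nat RI
  set V : ℕ → M → E := fun k x => rc (fun i => v i x) (c k) with hVd
  set W : ℕ → M → E := fun k x => rc (fun i => w i x) (c k) with hWd
  have hV : ∀ k, StronglyMeasurable (V k) := fun k => stronglyMeasurable_rc hv _
  have hW : ∀ k, StronglyMeasurable (W k) := fun k => stronglyMeasurable_rc hw _
  have hTV : ∀ k x, T x (V k x) = W k x := fun k x => (hT x).map_rc _
  -- the distance to the closed span
  set δ : M → ℝ := fun x => ⨅ k, ‖u - V k x‖ with hδd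
  have hdm : ∀ k, Measurable fun x => ‖u - V k x‖ := fun k =>
    (stronglyMeasurable_const.sub (hV k)).norm.measurable
  have hδm : Measurable δ := Measurable.iInf hdm
  have hbdd : ∀ x, BddBelow (Set.range fun k => ‖u - V k x‖) := fun x =>
    ⟨0, by rintro _ ⟨k, rfl⟩; exact norm_nonneg _⟩
  have hex : ∀ (N : ℕ) (x : M), ∃ k, ‖u - V k x‖ < δ x + ((N : ℝ) + 1)⁻¹ := by
    intro N x
    exact exists_lt_of_ciInf_lt (lt_add_of_pos_right (δ x) (by positivity))
  set n : ℕ → M → ℕ := fun N x => Nat.find (hex N x) with hnd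
  have hn : ∀ N, Measurable (n N) := fun N =>
    measurable_find (hex N) fun k => measurableSet_lt (hdm k) (hδm.add_const _)
  refine stronglyMeasurable_of_tendsto (f := fun N x => W (n N x) x) atTop
    (fun N => stronglyMeasurable_choice hW (hn N)) ?_
  rw [tendsto_pi_nhds]
  intro x
  obtain ⟨y, hy, hu⟩ := orth_of_proj (fun i => v i x) u
  have hTu : T x u = T x y := by
    have := (hT x).orth _ hu
    rw [map_sub, sub_eq_zero] at this
    exact this
  -- orthogonality
  have horth : ∀ z ∈ cspan (fun i => v i x), ⟪z, u - y⟫_ℝ = 0 := by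
    intro z hz
    have h2 : cspan (fun i => v i x) ≤ (Submodule.span ℝ {u - y})ᗮ := by
      refine cspan_le (Submodule.isClosed_orthogonal _) fun i => ?_
      rw [Submodule.mem_orthogonal_singleton_iff_inner_left]
      exact hu i
    have h3 := h2 hz
    rw [Submodule.mem_orthogonal_singleton_iff_inner_left] at h3
    exact h3
  have hpyth : ∀ k, ‖u - V k x‖ ^ 2 = ‖u - y‖ ^ 2 + ‖y - V k x‖ ^ 2 := by
    intro k
    have h1 : ⟪y - V k x, u - y⟫_ℝ = 0 := horth _ (Submodule.sub_mem _ hy (rc_mem_cspan _ _))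
    have h2 : u - V k x = (u - y) + (y - V k x) := by abel
    rw [h2, norm_add_sq_real, real_inner_comm, h1]
    ring
  have hδ : δ x = ‖u - y‖ := by
    refine le_antisymm ?_ ?_
    · refine le_of_forall_pos_lt_add fun ε hε => ?_
      obtain ⟨k, hk⟩ := rc_dense (fun i => v i x) hy hε
      obtain ⟨j, rfl⟩ := hc k
      have h1 : δ x ≤ ‖u - V j x‖ := ciInf_le (hbdd x) j
      have h2 : ‖u - V j x‖ ≤ ‖u - y‖ + ‖y - V j x‖ := by
        have : u - V j x = (u - y) + (y - V j x) := by abel
        rw [this]; exact norm_add_le _ _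
      exact lt_of_le_of_lt (h1.trans h2) (by linarith)
    · refine le_ciInf fun k => ?_
      have := hpyth k
      refine le_of_sq_le_sq ?_ (norm_nonneg _)
      linarith [sq_nonneg ‖y - V k x‖]
  have hlim : Tendsto (fun N => V (n N x) x) atTop (𝓝 y) := by
    rw [tendsto_iff_norm_sub_tendsto_zero]
    have h1 : ∀ N, ‖V (n N x) x - y‖ ^ 2 ≤ (2 * ‖u - y‖ + 1) * ((N : ℝ) + 1)⁻¹ := by
      intro N
      have h2 : ‖u - V (n N x) x‖ < δ x + ((N : ℝ) + 1)⁻¹ := Nat.find_spec (hex N x)
      have h3 := hpyth (n N x)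
      rw [hδ] at h2
      have h4 : ‖V (n N x) x - y‖ = ‖y - V (n N x) x‖ := norm_sub_rev _ _
      have h5 : ((N : ℝ) + 1)⁻¹ ≤ 1 := inv_le_one_of_one_le₀ (by linarith [N.cast_nonneg (α := ℝ)])
      have h6 : 0 < ((N : ℝ) + 1)⁻¹ := by positivity
      have h7 : ‖u - V (n N x) x‖ ^ 2 ≤ (‖u - y‖ + ((N : ℝ) + 1)⁻¹) ^ 2 :=
        pow_le_pow_left₀ (norm_nonneg _) h2.le 2
      rw [h4]
      nlinarith [norm_nonneg (u - y)]
    have h2 : Tendsto (fun N : ℕ => (2 * ‖u - y‖ + 1) * ((N : ℝ) + 1)⁻¹) atTop (𝓝 0) := by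
      have := (tendsto_one_div_add_atTop_nhds_zero_nat (𝕜 := ℝ)).const_mul (2 * ‖u - y‖ + 1)
      simpa [one_div] using this
    have h3 : Tendsto (fun N => ‖V (n N x) x - y‖ ^ 2) atTop (𝓝 0) :=
      squeeze_zero (fun N => sq_nonneg _) h1 h2
    have h4 := h3.sqrt
    simpa [Real.sqrt_sq (norm_nonneg _)] using h4
  have h5 := ((T x).continuous.tendsto y).comp hlim
  rw [hTu]
  refine h5.congr fun N => ?_
  exact hTV _ x

end

end Vale.Agent.P233.H131
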