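import Vale.Agent.P233.Gig.Defs
import Vale.Agent.P233.Bd3.B8
import Vale.Agent.P233.H131.OpMeas

/-!
P233, block T1 (helper131), part 3: existence of the Hessian operators `IsHess` of `Gig/Defs`.
-/

set_option linter.all false

open MeasureTheory Filter Topology
open scoped ENNReal NNReal InnerProductSpace

universe u

namespace Vale.Agent.P233.H131

variable {M : Type*} [MeasurableSpace M] {m : Measure M} {C : Calc m}
variable {E : Type*} [NormedAddCommGroup E] [InnerProductSpace ℝ E]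
variable {Gr : (M →ₘ[m] ℝ) → M → E} {U : (M →ₘ[m] ℝ) → (M →ₘ[m] ℝ) → M → E}

/-- a countable family of test functions that is dense in `W` -/
structure DenseT (C : Calc m) (e : ℕ → M →ₘ[m] ℝ) : Prop where
  mem : ∀ i, e i ∈ C.Test
  dense : ∀ f ∈ C.W, ∀ δ > 0, ∃ i, C.nrm2 (f - e i) < δ

theorem exists_denseT [SigmaFinite m] [MeasurableSpace.CountablyGenerated M] (hC : IsGamma C)
    {κ : ℝ} (hB : C.BEi κ) : ∃ e : ℕ → M →ₘ[m] ℝ, DenseT C e := by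
  obtain ⟨u, hu, hd⟩ := hC.toIsDir.exists_dense_seq
  choose g hg1 hg2 using fun (n k : ℕ) => hC.test_dense hB (hu n) (ε := ((k : ℝ) + 1)⁻¹)
    (by positivity)
  refine ⟨fun i => g (Nat.unpair i).1 (Nat.unpair i).2, fun i => hg1 _ _, fun f hf δ hδ => ?_⟩
  obtain ⟨n, hn⟩ := hd f hf (δ / 4) (by positivity)
  obtain ⟨k, hk⟩ := exists_nat_one_div_lt (show (0 : ℝ) < δ / 4 by positivity)
  refine ⟨Nat.pair n k, ?_⟩
  simp only [Nat.unpair_pair]
  have gW := hC.tW (hg1 n k)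
  have h1 := hC.nrm2_add_le (hC.sub_mem hf (hu n)) (hC.sub_mem (hu n) gW)
  rw [sub_add_sub_cancel] at h1
  have h2 := hC.nrm2_sub_comm hf (hu n)
  have h3 := hC.nrm2_sub_comm (hu n) gW
  have h4 := hg2 n k
  rw [one_div] at hk
  linarith

/-- a.e. membership in a closed subspace passes to `L²` limits -/
theorem mem_of_tendsto {S : M → Submodule ℝ E} (hS : ∀ x, IsClosed (S x : Set E))
    {F : ℕ → M → E} {G : M → E} (hF : ∀ n, AEStronglyMeasurable (F n) m)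
    (hG : AEStronglyMeasurable G m)
    (hlim : Tendsto (fun n => eLpNorm (F n - G) 2 m) atTop (𝓝 0))
    (h : ∀ n, ∀ᵐ x ∂m, F n x ∈ S x) : ∀ᵐ x ∂m, G x ∈ S x := by
  obtain ⟨ns, hns, h1⟩ := (tendstoInMeasure_of_tendsto_eLpNorm (by norm_num) hF hG
    hlim).exists_seq_tendsto_ae
  filter_upwards [h1, ae_all_iff.2 h] with x a1 a2
  exact (hS x).mem_of_tendsto a1 (Eventually.of_forall fun n => a2 _)

theorem grad_tendsto (hC : IsDir C) (hG : IsGrad C Gr) {f : M →ₘ[m] ℝ} (hf : f ∈ C.W)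
    {g : ℕ → M →ₘ[m] ℝ} (hg : ∀ n, g n ∈ C.W)
    (h : Tendsto (fun n => C.nrm2 (g n - f)) atTop (𝓝 0)) :
    Tendsto (fun n => eLpNorm (Gr (g n) - Gr f) 2 m) atTop (𝓝 0) := by
  have h1 : Tendsto (fun n => Real.sqrt (C.nrm2 (g n - f))) atTop (𝓝 0) := by
    have := h.sqrt
    rwa [Real.sqrt_zero] at this
  have h2 : Tendsto (fun n => ENNReal.ofReal (Real.sqrt (C.nrm2 (g n - f)))) atTop (𝓝 0) := by
    have := ENNReal.tendsto_ofReal h1
    rwa [ENNReal.ofReal_zero] at this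
  refine tendsto_of_tendsto_of_tendsto_of_le_of_le tendsto_const_nhds h2 (fun _ => zero_le)
    fun n => ?_
  have hm : MemLp (Gr (g n) - Gr f) 2 m := (hG.mem _ (hg n)).sub (hG.mem _ hf)
  have h3 := eLpNorm_sq_eq hm
  have h4 : ∫ x, ‖(Gr (g n) - Gr f) x‖ ^ 2 ∂m = I (C.Γ (g n - f) (g n - f)) := by
    rw [← hG.int_norm_sq (hC.sub_mem (hg n) hf)]
    refine integral_congr_ae ?_
    filter_upwards [hG.sub hC (hg n) hf] with x hx
    rw [hx, Pi.sub_apply]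
  have h5 := hC.E_le_nrm2 (g n - f)
  show eLpNorm (Gr (g n) - Gr f) 2 m ≤ ENNReal.ofReal (Real.sqrt (C.nrm2 (g n - f)))
  rw [← ENNReal.ofReal_toReal hm.2.ne]
  refine ENNReal.ofReal_le_ofReal (Real.le_sqrt_of_sq_le ?_)
  rw [h3, h4]
  exact h5

theorem DenseT.seq (hC : IsDir C) {e : ℕ → M →ₘ[m] ℝ} (he : DenseT C e) (heW : ∀ i, e i ∈ C.W)
    {f : M →ₘ[m] ℝ} (hf : f ∈ C.W) :
    ∃ k : ℕ → ℕ, Tendsto (fun n => C.nrm2 (e (k n) - f)) atTop (𝓝 0) := by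
  choose k hk using fun n : ℕ => he.dense f hf (((n : ℝ) + 1)⁻¹) (by positivity)
  refine ⟨k, squeeze_zero (fun n => hC.nrm2_nonneg (hC.sub_mem (heW _) hf)) (fun n => ?_)
      tendsto_inv_succ⟩
  rw [hC.nrm2_sub_comm (heW _) hf]
  exact (hk n).le

section span

variable (hC : IsGamma C) {κ : ℝ} (hB : C.BEi κ) (hG : IsGrad C Gr)
variable {e : ℕ → M →ₘ[m] ℝ} (he : DenseT C e)

include hC hG he

/-- the gradient of a Sobolev function is in the tangent space -/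
theorem grad_mem {f : M →ₘ[m] ℝ} (hf : f ∈ C.W) :
    ∀ᵐ x ∂m, Gr f x ∈ cspan (fun i => Gr (e i) x) := by
  have heW : ∀ i, e i ∈ C.W := fun i => hC.tW (he.mem i)
  obtain ⟨k, hk⟩ := he.seq hC.toIsDir heW hf
  refine mem_of_tendsto (fun x => isClosed_cspan _) (fun n => (hG.mem _ (heW (k n))).1)
    (hG.mem _ hf).1 (grad_tendsto hC.toIsDir hG hf (fun n => heW (k n)) hk) fun n => ?_
  exact Eventually.of_forall fun x => mem_cspan _ (k n)

theorem fvec_mem_span {Z : List ((M →ₘ[m] ℝ) × (M →ₘ[m] ℝ))} (hZ : C.IsTestV Z) :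
    ∀ᵐ x ∂m, fvec Gr Z x ∈ cspan (fun i => Gr (e i) x) := by
  induction Z with
  | nil =>
    refine Eventually.of_forall fun x => ?_
    rw [IsGrad.fvec_nil]
    exact Submodule.zero_mem _
  | cons p Z ih =>
    have hZ' : C.IsTestV Z := fun r hr => hZ r (List.mem_cons_of_mem _ hr)
    have hp := hZ p List.mem_cons_self
    filter_upwards [ih hZ', grad_mem hC hG he (hC.tW hp.2)] with x a1 a2
    rw [IsGrad.fvec_cons]
    exact Submodule.add_mem _ (Submodule.smul_mem _ _ a2) a1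

theorem inClo_mem {F : M → E} (hF : InClo C Gr F) :
    ∀ᵐ x ∂m, F x ∈ cspan (fun i => Gr (e i) x) := by
  choose Z hZ1 hZ2 using fun n : ℕ => hF.2 (ENNReal.ofReal (((n : ℝ) + 1)⁻¹))
    (ENNReal.ofReal_pos.2 (by positivity))
  refine mem_of_tendsto (F := fun n => fvec Gr (Z n)) (fun x => isClosed_cspan _)
    (fun n => (hG.fvec_mem hC (hZ1 n)).1) hF.1.1 ?_ fun n => fvec_mem_span hC hG he (hZ1 n)
  have h1 : Tendsto (fun n : ℕ => ENNReal.ofReal (((n : ℝ) + 1)⁻¹)) atTop (𝓝 0) := by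
    have := ENNReal.tendsto_ofReal tendsto_inv_succ
    rwa [ENNReal.ofReal_zero] at this
  refine tendsto_of_tendsto_of_tendsto_of_le_of_le tendsto_const_nhds h1 (fun _ => zero_le)
    fun n => ?_
  show eLpNorm (fvec Gr (Z n) - F) 2 m ≤ ENNReal.ofReal (((n : ℝ) + 1)⁻¹)
  rw [eLpNorm_sub_comm]
  exact (hZ2 n).le

/-- two dense families have the same tangent spaces -/
theorem cspan_eq {e' : ℕ → M →ₘ[m] ℝ} (he' : DenseT C e') :
    ∀ᵐ x ∂m, cspan (fun i => Gr (e i) x) = cspan (fun i => Gr (e' i) x) := by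
  have h1 : ∀ᵐ x ∂m, ∀ i, Gr (e' i) x ∈ cspan (fun i => Gr (e i) x) :=
    ae_all_iff.2 fun i => grad_mem hC hG he (hC.tW (he'.mem i))
  have h2 : ∀ᵐ x ∂m, ∀ i, Gr (e i) x ∈ cspan (fun i => Gr (e' i) x) :=
    ae_all_iff.2 fun i => grad_mem hC hG he' (hC.tW (he.mem i))
  filter_upwards [h1, h2] with x a1 a2
  exact le_antisymm (cspan_le (isClosed_cspan _) a2) (cspan_le (isClosed_cspan _) a1)

end span

/-- finite combinations -/
theorem lin_sum_ae (hC : IsGamma C) {κ : ℝ} (hB : C.BEi κ) {P : (M →ₘ[m] ℝ) → M → E}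
    (hP : ∀ a ∈ C.Test, ∀ a' ∈ C.Test, ∀ t : ℝ, ∀ᵐ x ∂m, P (a + t • a') x = P a x + t • P a' x)
    {ι : Type*} (s : Finset ι) {f : ι → M →ₘ[m] ℝ} (hf : ∀ i, f i ∈ C.Test) (c : ι → ℝ) :
    ∀ᵐ x ∂m, P (∑ i ∈ s, c i • f i) x = ∑ i ∈ s, c i • P (f i) x := by
  classical
  have h0 : ∀ᵐ x ∂m, P 0 x = 0 := by
    filter_upwards [hP 0 (hC.test_zero hB) 0 (hC.test_zero hB) 1] with x hx
    rw [smul_zero, add_zero, one_smul] at hx
    exact left_eq_add.1 hx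
  induction s using Finset.induction_on with
  | empty => simpa using h0
  | insert i s hi ih =>
    have hS := hC.test_sum hB s (fun i => hC.test_smul hB (c i) (hf i))
    filter_upwards [ih, hP _ hS _ (hf i) (c i)] with x a1 a2
    rw [Finset.sum_insert hi, Finset.sum_insert hi, add_comm, a2, a1, add_comm]

/-- The pointwise bound of the Hessian (helper853, block B0H). -/
def HopBd (C : Calc m) (Gr : (M →ₘ[m] ℝ) → M → E) (U : (M →ₘ[m] ℝ) → (M →ₘ[m] ℝ) → M → E) : Prop :=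
  ∃ c : ℝ, ∀ b ∈ C.Test, ∃ L : M → ℝ, MemLp L 2 m ∧ (∀ x, 0 ≤ L x) ∧
    (∀ f ∈ C.Test, ∀ᵐ x ∂m, ‖U b f x‖ ≤ L x * ‖Gr f x‖) ∧
    ∫ x, L x ^ 2 ∂m ≤ c * (I (C.lap b ^ 2) + I (C.Γ b b))

/-- the Hessian operators -/
noncomputable def HOf (Gr : (M →ₘ[m] ℝ) → M → E) (U : (M →ₘ[m] ℝ) → (M →ₘ[m] ℝ) → M → E)
    (e : ℕ → M →ₘ[m] ℝ) (b : M →ₘ[m] ℝ) (x : M) : E →L[ℝ] E :=
  opOf (fun i => Gr (e i) x) (fun i => U b (e i) x)

section ops

variable [SigmaFinite m] [CompleteSpace E]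
variable (hC : IsGamma C) {κ : ℝ} (hB : C.BEi κ) (hG : IsGrad C Gr) (hU : IsHU C Gr U)
variable {e : ℕ → M →ₘ[m] ℝ} (he : DenseT C e)

include hC hB hG in
theorem grad_lin (a : M →ₘ[m] ℝ) (ha : a ∈ C.Test) (a' : M →ₘ[m] ℝ) (ha' : a' ∈ C.Test) (t : ℝ) :
    ∀ᵐ x ∂m, Gr (a + t • a') x = Gr a x + t • Gr a' x := by
  filter_upwards [hG.add hC.toIsDir (hC.tW ha) (hC.smul_mem t _ (hC.tW ha')),
    hG.smul hC.toIsDir t (hC.tW ha')] with x a1 a2
  rw [a1, a2]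

include hC hB hG hU he

theorem bddOn_ae {b : M →ₘ[m] ℝ} (hb : b ∈ C.Test) {L : M → ℝ}
    (hL : ∀ f ∈ C.Test, ∀ᵐ x ∂m, ‖U b f x‖ ≤ L x * ‖Gr f x‖) :
    ∀ᵐ x ∂m, BddOn (fun i => Gr (e i) x) (fun i => U b (e i) x) (L x) := by
  have h1 : ∀ᵐ x ∂m, ∀ k : RI, ‖∑ i, (k.2 i : ℝ) • U b (e i) x‖
      ≤ L x * ‖∑ i, (k.2 i : ℝ) • Gr (e i) x‖ := by
    refine ae_all_iff.2 fun k => ?_
    have hS : ∑ i, (k.2 i : ℝ) • e i ∈ C.Test :=
      hC.test_sum hB Finset.univ (fun i => hC.test_smul hB (k.2 i : ℝ) (he.mem i))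
    filter_upwards [hL _ hS,
      lin_sum_ae hC hB (P := U b) (fun a ha a' ha' t => hU.lin_a hC hB hG t ha ha' hb)
        (Finset.univ : Finset k.1) (f := fun i => e i) (fun i => he.mem i) (fun i => (k.2 i : ℝ)),
      lin_sum_ae hC hB (P := Gr) (fun a ha a' ha' t => grad_lin hC hB hG a ha a' ha' t)
        (Finset.univ : Finset k.1) (f := fun i => e i) (fun i => he.mem i) (fun i => (k.2 i : ℝ))]
      with x a1 a2 a3
    rw [← a2, ← a3]
    exact a1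
  filter_upwards [h1] with x hx
  exact bddOn_of_rat fun s q => hx ⟨s, q⟩

theorem isOp_ae {b : M →ₘ[m] ℝ} (hb : b ∈ C.Test) {L : M → ℝ} (hL0 : ∀ x, 0 ≤ L x)
    (hL : ∀ f ∈ C.Test, ∀ᵐ x ∂m, ‖U b f x‖ ≤ L x * ‖Gr f x‖) :
    ∀ᵐ x ∂m, IsOp (fun i => Gr (e i) x) (fun i => U b (e i) x) (HOf Gr U e b x) ∧
      ‖HOf Gr U e b x‖ ≤ L x := by
  filter_upwards [bddOn_ae hC hB hG hU he hb hL] with x hx
  exact opOf_spec (hL0 x) hx

/-- a measurable set of full measure on which the operator is good -/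
theorem HOf_good {b : M →ₘ[m] ℝ} (hb : b ∈ C.Test) {L : M → ℝ} (hL0 : ∀ x, 0 ≤ L x)
    (hL : ∀ f ∈ C.Test, ∀ᵐ x ∂m, ‖U b f x‖ ≤ L x * ‖Gr f x‖) :
    ∃ G : Set M, MeasurableSet G ∧ (∀ᵐ x ∂m, x ∈ G) ∧
      (∀ x ∈ G, IsOp (fun i => Gr (e i) x) (fun i => U b (e i) x) (HOf Gr U e b x) ∧
        ‖HOf Gr U e b x‖ ≤ L x ∧ (∀ i, U b (e i) x ∈ cspan (fun i => Gr (e i) x)) ∧
        ∀ v w : E, ⟪HOf Gr U e b x v, w⟫_ℝ = ⟪v, HOf Gr U e b x w⟫_ℝ) ∧
      ∀ v : E, StronglyMeasurable fun x => G.indicator (fun x => HOf Gr U e b x) x v := by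
  classical
  have hv : ∀ i, AEStronglyMeasurable (Gr (e i)) m := fun i => (hG.mem _ (hC.tW (he.mem i))).1
  have hw : ∀ i, AEStronglyMeasurable (U b (e i)) m := fun i => (hU.mem b hb _ (he.mem i)).1
  have hsp : ∀ᵐ x ∂m, ∀ i, U b (e i) x ∈ cspan (fun i => Gr (e i) x) :=
    ae_all_iff.2 fun i => inClo_mem hC hG he (hU.incl hb (he.mem i))
  have hs : ∀ᵐ x ∂m, ∀ i j, ⟪U b (e i) x, Gr (e j) x⟫_ℝ = ⟪Gr (e i) x, U b (e j) x⟫_ℝ := by
    refine ae_all_iff.2 fun i => ae_all_iff.2 fun j => ?_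
    filter_upwards [hU.inner b hb _ (he.mem i) _ (he.mem j),
      hU.inner b hb _ (he.mem j) _ (he.mem i),
      eq_iff_ae.1 (hC.hess_symm hB hb (he.mem i) (he.mem j))] with x a1 a2 a3
    rw [a1, a3, real_inner_comm, a2]
  have h1 : ∀ᵐ x ∂m, ((∀ i, Gr (e i) x = (hv i).mk _ x) ∧ (∀ i, U b (e i) x = (hw i).mk _ x)) ∧
      (IsOp (fun i => Gr (e i) x) (fun i => U b (e i) x) (HOf Gr U e b x) ∧
        ‖HOf Gr U e b x‖ ≤ L x ∧ (∀ i, U b (e i) x ∈ cspan (fun i => Gr (e i) x)) ∧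
        ∀ v w : E, ⟪HOf Gr U e b x v, w⟫_ℝ = ⟪v, HOf Gr U e b x w⟫_ℝ) := by
    filter_upwards [isOp_ae hC hB hG hU he hb hL0 hL, ae_all_iff.2 fun i => (hv i).ae_eq_mk,
      ae_all_iff.2 fun i => (hw i).ae_eq_mk, hsp, hs] with x a1 a2 a3 a4 a5
    exact ⟨⟨a2, a3⟩, a1.1, a1.2, a4, fun v w => a1.1.symm a4 a5 v w⟩
  obtain ⟨G, hG1, hG2, hG3⟩ := h1.exists_measurable_mem
  refine ⟨G, hG2, hG1, fun x hx => (hG3 x hx).2, fun v => ?_⟩
  have hTop : ∀ x, IsOp (fun i => G.indicator ((hv i).mk _) x)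
      (fun i => G.indicator ((hw i).mk _) x) (G.indicator (fun x => HOf Gr U e b x) x) := by
    intro x
    by_cases hx : x ∈ G
    · obtain ⟨⟨a1, a2⟩, a3, -⟩ := hG3 x hx
      have e1 : (fun i => G.indicator ((hv i).mk _) x) = fun i => Gr (e i) x := by
        funext i
        rw [Set.indicator_of_mem hx, a1 i]
      have e2 : (fun i => G.indicator ((hw i).mk _) x) = fun i => U b (e i) x := by
        funext i
        rw [Set.indicator_of_mem hx, a2 i]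
      rw [e1, e2, Set.indicator_of_mem hx]
      exact a3
    · refine ⟨fun i => ?_, fun u _ => ?_⟩
      · simp [hx]
      · simp [hx]
  exact stronglyMeasurable_op (fun i => ((hv i).stronglyMeasurable_mk).indicator hG2)
    (fun i => ((hw i).stronglyMeasurable_mk).indicator hG2) hTop v

theorem HOf_meas {b : M →ₘ[m] ℝ} (hb : b ∈ C.Test) {L : M → ℝ} (hL0 : ∀ x, 0 ≤ L x)
    (hL : ∀ f ∈ C.Test, ∀ᵐ x ∂m, ‖U b f x‖ ≤ L x * ‖Gr f x‖) (v : E) :
    AEStronglyMeasurable (fun x => HOf Gr U e b x v) m := by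
  obtain ⟨G, -, h2, -, h4⟩ := HOf_good hC hB hG hU he hb hL0 hL
  refine ⟨_, h4 v, ?_⟩
  filter_upwards [h2] with x hx
  rw [Set.indicator_of_mem hx]

/-- the value on gradients of test functions -/
theorem HOf_grad {b : M →ₘ[m] ℝ} (hb : b ∈ C.Test) {L : M → ℝ} (hL0 : ∀ x, 0 ≤ L x)
    (hL : ∀ f ∈ C.Test, ∀ᵐ x ∂m, ‖U b f x‖ ≤ L x * ‖Gr f x‖) {f : M →ₘ[m] ℝ} (hf : f ∈ C.Test) :
    ∀ᵐ x ∂m, HOf Gr U e b x (Gr f x) = U b f x := by
  have heW : ∀ i, e i ∈ C.W := fun i => hC.tW (he.mem i)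
  obtain ⟨k, hk⟩ := he.seq hC.toIsDir heW (hC.tW hf)
  obtain ⟨ns, hns, h1⟩ := (tendstoInMeasure_of_tendsto_eLpNorm (by norm_num)
    (fun n => (hG.mem _ (heW (k n))).1) (hG.mem _ (hC.tW hf)).1
    (grad_tendsto hC.toIsDir hG (hC.tW hf) (fun n => heW (k n)) hk)).exists_seq_tendsto_ae
  have hd : ∀ n, e (k (ns n)) + (-1 : ℝ) • f ∈ C.Test := fun n =>
    hC.test_add hB (he.mem _) (hC.test_smul hB _ hf)
  filter_upwards [h1, isOp_ae hC hB hG hU he hb hL0 hL, ae_all_iff.2 fun n => hL _ (hd n),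
    ae_all_iff.2 fun n => hU.lin_a hC hB hG (-1) (he.mem (k (ns n))) hf hb,
    ae_all_iff.2 fun n => grad_lin hC hB hG _ (he.mem (k (ns n))) f hf (-1)]
    with x a1 a2 a3 a4 a5
  have t1 : Tendsto (fun n => HOf Gr U e b x (Gr (e (k (ns n))) x)) atTop
      (𝓝 (HOf Gr U e b x (Gr f x))) := ((HOf Gr U e b x).continuous.tendsto _).comp a1
  have t2 : Tendsto (fun n => U b (e (k (ns n))) x) atTop (𝓝 (HOf Gr U e b x (Gr f x))) := by
    refine t1.congr fun n => ?_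
    exact a2.1.map _
  have t3 : Tendsto (fun n => U b (e (k (ns n))) x) atTop (𝓝 (U b f x)) := by
    rw [tendsto_iff_norm_sub_tendsto_zero]
    have t4 : Tendsto (fun n => L x * ‖Gr (e (k (ns n))) x - Gr f x‖) atTop (𝓝 0) := by
      have := (tendsto_iff_norm_sub_tendsto_zero.1 a1).const_mul (L x)
      rwa [mul_zero] at this
    refine squeeze_zero (fun n => norm_nonneg _) (fun n => ?_) t4
    have h3 := a3 n
    rw [a4 n, a5 n, neg_one_smul, neg_one_smul, ← sub_eq_add_neg, ← sub_eq_add_neg] at h3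
    exact h3
  exact tendsto_nhds_unique t2 t3

/-- linearity in the function -/
theorem HOf_lin (hD : HopBd C Gr U) {b : M →ₘ[m] ℝ} (hb : b ∈ C.Test) {b' : M →ₘ[m] ℝ}
    (hb' : b' ∈ C.Test) (t : ℝ) :
    ∀ᵐ x ∂m, HOf Gr U e (t • b + b') x = t • HOf Gr U e b x + HOf Gr U e b' x := by
  obtain ⟨c, hc⟩ := hD
  obtain ⟨L, hL2, hL0, hL, hI⟩ := hc b hb
  obtain ⟨L', hL2', hL0', hL', hI'⟩ := hc b' hb'
  have hs := hC.test_add hB (hC.test_smul hB t hb) hb'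
  obtain ⟨L'', hL2'', hL0'', hL'', hI''⟩ := hc _ hs
  have h1 : ∀ᵐ x ∂m, ∀ i, U (t • b + b') (e i) x = t • U b (e i) x + U b' (e i) x := by
    refine ae_all_iff.2 fun i => ?_
    have e1 : t • b + b' = b' + t • b := add_comm _ _
    filter_upwards [hU.lin_b hC hB hG t hb' hb (he.mem i)] with x hx
    rw [e1, hx, add_comm]
  filter_upwards [isOp_ae hC hB hG hU he hb hL0 hL, isOp_ae hC hB hG hU he hb' hL0' hL',
    isOp_ae hC hB hG hU he hs hL0'' hL'', h1] with x a1 a2 a3 a4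
  refine a3.1.unique ⟨fun i => ?_, fun u hu => ?_⟩
  · rw [ContinuousLinearMap.add_apply, ContinuousLinearMap.smul_apply, a1.1.map, a2.1.map, a4]
  · rw [ContinuousLinearMap.add_apply, ContinuousLinearMap.smul_apply, a1.1.orth u hu,
      a2.1.orth u hu, smul_zero, add_zero]

/-- the gradient of `⟨∇f,∇g⟩` -/
theorem HOf_prod (hD : HopBd C Gr U) {f : M →ₘ[m] ℝ} (hf : f ∈ C.Test) {g : M →ₘ[m] ℝ}
    (hg : g ∈ C.Test) :
    ∀ᵐ x ∂m, Gr (C.Γ f g) x = HOf Gr U e f x (Gr g x) + HOf Gr U e g x (Gr f x) := by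
  obtain ⟨c, hc⟩ := hD
  obtain ⟨L, hL2, hL0, hL, hI⟩ := hc f hf
  obtain ⟨L', hL2', hL0', hL', hI'⟩ := hc g hg
  filter_upwards [HOf_grad hC hB hG hU he hf hL0 hL hg, HOf_grad hC hB hG hU he hg hL0' hL' hf,
    hU.sym hC hB hG hf hg] with x a1 a2 a3
  rw [a1, a2, a3]

end ops

/-- **Existence of the Hessian operators.** -/
theorem isHess_of_bd {M : Type u} [MeasurableSpace M] {m : Measure M} {C : Calc m} {E : Type*}
    [NormedAddCommGroup E] [InnerProductSpace ℝ E] {Gr : (M →ₘ[m] ℝ) → M → E}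
    {U : (M →ₘ[m] ℝ) → (M →ₘ[m] ℝ) → M → E} [SigmaFinite m] [CompleteSpace E]
    (hC : IsGamma C) {κ : ℝ} (hB : C.BEi κ) (hG : IsGrad C Gr) (hU : IsHU C Gr U)
    {e : ℕ → M →ₘ[m] ℝ} (he : DenseT C e) (hD : HopBd C Gr U) :
    IsHess C Gr (HOf Gr U e) := by
  have hD' := hD
  obtain ⟨c, hc⟩ := hD
  have hsp : ∀ b ∈ C.Test, ∀ᵐ x ∂m, ∀ i, U b (e i) x ∈ cspan (fun i => Gr (e i) x) := fun b hb =>
    ae_all_iff.2 fun i => inClo_mem hC hG he (hU.incl hb (he.mem i))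
  refine ⟨fun b hb v => ?_, ⟨c, fun b hb => ?_⟩, fun b hb => ?_, fun b hb f hf g hg => ?_,
    fun b hb b' hb' t => ?_, fun f hf g hg => ?_, fun e' he1 he2 b hb => ?_⟩
  · obtain ⟨L, hL2, hL0, hL, -⟩ := hc b hb
    exact HOf_meas hC hB hG hU he hb hL0 hL v
  · obtain ⟨L, hL2, hL0, hL, hI⟩ := hc b hb
    refine ⟨L, hL2, ?_, hI⟩
    filter_upwards [isOp_ae hC hB hG hU he hb hL0 hL] with x hx
    exact hx.2
  · obtain ⟨L, hL2, hL0, hL, hI⟩ := hc b hb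
    have hs : ∀ᵐ x ∂m, ∀ i j, ⟪U b (e i) x, Gr (e j) x⟫_ℝ = ⟪Gr (e i) x, U b (e j) x⟫_ℝ := by
      refine ae_all_iff.2 fun i => ae_all_iff.2 fun j => ?_
      filter_upwards [hU.inner b hb _ (he.mem i) _ (he.mem j),
        hU.inner b hb _ (he.mem j) _ (he.mem i),
        eq_iff_ae.1 (hC.hess_symm hB hb (he.mem i) (he.mem j))] with x a1 a2 a3
      rw [a1, a3, real_inner_comm, a2]
    filter_upwards [isOp_ae hC hB hG hU he hb hL0 hL, hsp b hb, hs] with x a1 a2 a3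
    intro v w
    exact a1.1.symm a2 a3 v w
  · obtain ⟨L, hL2, hL0, hL, hI⟩ := hc b hb
    filter_upwards [HOf_grad hC hB hG hU he hb hL0 hL hf, hU.inner b hb f hf g hg] with x a1 a2
    rw [a1, a2]
  · exact HOf_lin hC hB hG hU he hD' hb hb' t
  · exact HOf_prod hC hB hG hU he hD' hf hg
  · obtain ⟨L, hL2, hL0, hL, hI⟩ := hc b hb
    filter_upwards [isOp_ae hC hB hG hU he hb hL0 hL, hsp b hb,
      cspan_eq hC hG he ⟨he1, he2⟩] with x a1 a2 a3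
    intro v
    have h1 := a1.1.range (isClosed_cspan _) a2 v
    rw [a3] at h1
    rw [← Submodule.topologicalClosure_coe]
    exact h1

end Vale.Agent.P233.H131
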