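import Vale.Agent.P233.MathlibUsed2

/-!
P233, block T1 (helper131), part 1: operators on a Hilbert space that are prescribed on a sequence
of vectors, and their measurable dependence on a parameter. Mathlib only.
-/

set_option linter.all false

open MeasureTheory Filter Topology
open scoped ENNReal NNReal InnerProductSpace

namespace Vale.Agent.P233.H131

section pointwise

variable {E : Type*} [NormedAddCommGroup E] [InnerProductSpace ℝ E]

/-- the closed span of a sequence -/
def cspan (v : ℕ → E) : Submodule ℝ E := (Submodule.span ℝ (Set.range v)).topologicalClosure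

theorem isClosed_cspan (v : ℕ → E) : IsClosed (cspan v : Set E) :=
  Submodule.isClosed_topologicalClosure _

theorem mem_cspan (v : ℕ → E) (i : ℕ) : v i ∈ cspan v :=
  Submodule.le_topologicalClosure _ (Submodule.subset_span (Set.mem_range_self i))

theorem cspan_le {v : ℕ → E} {S : Submodule ℝ E} (hS : IsClosed (S : Set E)) (h : ∀ i, v i ∈ S) :
    cspan v ≤ S :=
  Submodule.topologicalClosure_minimal _
    (Submodule.span_le.2 (by rintro _ ⟨i, rfl⟩; exact h i)) hS

/-- an element of the closed span that is orthogonal to all the vectors vanishes -/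
theorem eq_zero_of_cspan {v : ℕ → E} {y : E} (hy : y ∈ cspan v) (h : ∀ i, ⟪y, v i⟫_ℝ = 0) :
    y = 0 := by
  have h1 : cspan v ≤ (Submodule.span ℝ {y})ᗮ := by
    refine cspan_le (Submodule.isClosed_orthogonal _) fun i => ?_
    rw [Submodule.mem_orthogonal_singleton_iff_inner_right]
    exact h i
  have h2 := h1 hy
  rw [Submodule.mem_orthogonal_singleton_iff_inner_right] at h2
  exact inner_self_eq_zero.1 h2

theorem eq_of_cspan {v : ℕ → E} {y z : E} (hy : y ∈ cspan v) (hz : z ∈ cspan v)
    (h : ∀ i, ⟪y, v i⟫_ℝ = ⟪z, v i⟫_ℝ) : y = z := by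
  rw [← sub_eq_zero]
  refine eq_zero_of_cspan (Submodule.sub_mem _ hy hz) fun i => ?_
  rw [inner_sub_left, h i, sub_self]

/-- The values of the operator on all finite combinations are bounded by `D` times the norm. -/
def BddOn (v w : ℕ → E) (D : ℝ) : Prop :=
  ∀ c : ℕ →₀ ℝ, ‖Finsupp.linearCombination ℝ w c‖ ≤ D * ‖Finsupp.linearCombination ℝ v c‖

/-- it is enough to look at rational combinations -/
theorem bddOn_of_rat {v w : ℕ → E} {D : ℝ}
    (h : ∀ (s : Finset ℕ) (q : s → ℚ), ‖∑ i, (q i : ℝ) • w i‖ ≤ D * ‖∑ i, (q i : ℝ) • v i‖) :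
    BddOn v w D := by
  intro c
  have hcl : IsClosed {r : c.support → ℝ | ‖∑ i, r i • w i‖ ≤ D * ‖∑ i, r i • v i‖} :=
    isClosed_le (by fun_prop) (by fun_prop)
  have hd : DenseRange (Pi.map fun (_ : c.support) (q : ℚ) => (q : ℝ)) :=
    DenseRange.piMap fun _ => Rat.denseRange_cast
  have h2 : ∀ r : c.support → ℝ, ‖∑ i, r i • w i‖ ≤ D * ‖∑ i, r i • v i‖ := by
    intro r
    have := hcl.closure_subset_iff.2 (show Set.range (Pi.map fun (_ : c.support) (q : ℚ) =>
      (q : ℝ)) ⊆ {r : c.support → ℝ | ‖∑ i, r i • w i‖ ≤ D * ‖∑ i, r i • v i‖} by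
        rintro _ ⟨q, rfl⟩; exact h _ q)
    exact this (hd r)
  have h3 := h2 fun i => c i
  rw [Finsupp.linearCombination_apply, Finsupp.linearCombination_apply, Finsupp.sum, Finsupp.sum,
    ← Finset.sum_coe_sort c.support, ← Finset.sum_coe_sort c.support]
  exact h3

/-- `T` maps `v i` to `w i` and vanishes on the orthogonal complement of the `v i` -/
structure IsOp (v w : ℕ → E) (T : E →L[ℝ] E) : Prop where
  map : ∀ i, T (v i) = w i
  orth : ∀ u : E, (∀ i, ⟪v i, u⟫_ℝ = 0) → T u = 0

theorem op_unique_on {v : ℕ → E} {T T' : E →L[ℝ] E} (h : ∀ i, T (v i) = T' (v i)) {y : E}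
    (hy : y ∈ cspan v) : T y = T' y := by
  have h1 : cspan v ≤ LinearMap.ker (T - T').toLinearMap := by
    refine cspan_le (ContinuousLinearMap.isClosed_ker (T - T')) fun i => ?_
    rw [LinearMap.mem_ker]
    simp [h i]
  have h2 := h1 hy
  rw [LinearMap.mem_ker] at h2
  have h3 : T y - T' y = 0 := by simpa using h2
  exact sub_eq_zero.1 h3

variable [CompleteSpace E]

theorem orth_of_proj (v : ℕ → E) (u : E) :
    ∃ y ∈ cspan v, ∀ i, ⟪v i, u - y⟫_ℝ = 0 := by
  have hc : CompleteSpace (cspan v) := (isClosed_cspan v).completeSpace_coe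
  refine ⟨(cspan v).starProjection u, Submodule.starProjection_apply_mem _ _, fun i => ?_⟩
  have := Submodule.starProjection_inner_eq_zero u (v i) (mem_cspan v i)
  rw [real_inner_comm]
  exact this

theorem IsOp.unique {v w : ℕ → E} {T T' : E →L[ℝ] E} (h : IsOp v w T) (h' : IsOp v w T') :
    T = T' := by
  ext u
  obtain ⟨y, hy, hu⟩ := orth_of_proj v u
  have h1 := h.orth _ hu
  have h2 := h'.orth _ hu
  rw [map_sub, sub_eq_zero] at h1 h2
  rw [h1, h2]
  exact op_unique_on (fun i => by rw [h.map, h'.map]) hy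

theorem exists_isOp {v w : ℕ → E} {D : ℝ} (hD : 0 ≤ D) (h : BddOn v w D) :
    ∃ T : E →L[ℝ] E, IsOp v w T ∧ ‖T‖ ≤ D := by
  have hc : CompleteSpace (cspan v) := (isClosed_cspan v).completeSpace_coe
  have hmem : ∀ c : ℕ →₀ ℝ, Finsupp.linearCombination ℝ v c ∈ cspan v := by
    intro c
    refine Submodule.le_topologicalClosure _ ?_
    rw [← Finsupp.range_linearCombination]
    exact LinearMap.mem_range_self _ c
  let e : (ℕ →₀ ℝ) →ₗ[ℝ] cspan v := (Finsupp.linearCombination ℝ v).codRestrict (cspan v) hmem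
  have he : ∀ c, (e c : E) = Finsupp.linearCombination ℝ v c := fun c => rfl
  have hde : DenseRange e := by
    rw [DenseRange, dense_iff_closure_eq, Set.eq_univ_iff_forall]
    rintro ⟨y, hy⟩
    rw [mem_closure_iff_seq_limit]
    have hy' : y ∈ closure ((Submodule.span ℝ (Set.range v) : Submodule ℝ E) : Set E) := by
      rw [← Submodule.topologicalClosure_coe]; exact hy
    obtain ⟨z, hz, hlim⟩ := mem_closure_iff_seq_limit.1 hy'
    have hz' : ∀ n, ∃ c, Finsupp.linearCombination ℝ v c = z n := by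
      intro n
      have := hz n
      rw [SetLike.mem_coe, ← Finsupp.range_linearCombination] at this
      exact LinearMap.mem_range.1 this
    choose c hc using hz'
    refine ⟨fun n => e (c n), fun n => Set.mem_range_self _, ?_⟩
    rw [tendsto_subtype_rng]
    refine hlim.congr fun n => ?_
    rw [he, hc]
  let f : (ℕ →₀ ℝ) →ₗ[ℝ] E := Finsupp.linearCombination ℝ w
  have hf : ∀ c, ‖f c‖ ≤ D * ‖e c‖ := fun c => h c
  let T0 : cspan v →L[ℝ] E := f.extendOfNorm e
  have hT0 : ∀ c, T0 (e c) = f c := fun c => LinearMap.extendOfNorm_eq hde ⟨D, hf⟩ c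
  have hT0n : ‖T0‖ ≤ D :=
    ContinuousLinearMap.opNorm_le_bound _ hD fun x =>
      LinearMap.norm_extendOfNorm_apply_le hde D hf x
  let P : E →L[ℝ] cspan v := (cspan v).orthogonalProjection
  refine ⟨T0.comp P, ⟨fun i => ?_, fun u hu => ?_⟩, ?_⟩
  · have h1 : e (Finsupp.single i 1) = ⟨v i, mem_cspan v i⟩ := by
      apply Subtype.ext
      rw [he, Finsupp.linearCombination_single, one_smul]
    have h2 : P (v i) = ⟨v i, mem_cspan v i⟩ :=
      Submodule.orthogonalProjection_mem_subspace_eq_self (K := cspan v) ⟨v i, mem_cspan v i⟩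
    rw [ContinuousLinearMap.comp_apply, h2, ← h1, hT0]
    change Finsupp.linearCombination ℝ w _ = _
    rw [Finsupp.linearCombination_single, one_smul]
  · have h1 : u ∈ (cspan v)ᗮ := by
      rw [Submodule.mem_orthogonal]
      intro y hy
      have h2 : cspan v ≤ (Submodule.span ℝ {u})ᗮ := by
        refine cspan_le (Submodule.isClosed_orthogonal _) fun i => ?_
        rw [Submodule.mem_orthogonal_singleton_iff_inner_left]
        exact hu i
      have h3 := h2 hy
      rw [Submodule.mem_orthogonal_singleton_iff_inner_left] at h3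
      exact h3
    have h2 : P u = 0 := Submodule.orthogonalProjection_mem_subspace_orthogonalComplement_eq_zero h1
    rw [ContinuousLinearMap.comp_apply, h2, map_zero]
  · refine (ContinuousLinearMap.opNorm_comp_le _ _).trans ?_
    calc ‖T0‖ * ‖P‖ ≤ D * 1 :=
          mul_le_mul hT0n (Submodule.orthogonalProjection_norm_le _) (by positivity) hD
      _ = D := mul_one D

open Classical in
/-- the operator with `T (v i) = w i` that vanishes on the orthogonal complement -/
noncomputable def opOf (v w : ℕ → E) : E →L[ℝ] E := if h : ∃ T, IsOp v w T then h.choose else 0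

theorem opOf_spec {v w : ℕ → E} {D : ℝ} (hD : 0 ≤ D) (h : BddOn v w D) :
    IsOp v w (opOf v w) ∧ ‖opOf v w‖ ≤ D := by
  obtain ⟨T, hT, hn⟩ := exists_isOp hD h
  have h1 : ∃ T, IsOp v w T := ⟨T, hT⟩
  have h2 : IsOp v w (opOf v w) := by
    unfold opOf
    rw [dif_pos h1]
    exact h1.choose_spec
  refine ⟨h2, ?_⟩
  rw [h2.unique hT]
  exact hn

theorem IsOp.opOf_eq {v w : ℕ → E} {T : E →L[ℝ] E} (h : IsOp v w T) : opOf v w = T := by
  have h1 : ∃ T, IsOp v w T := ⟨T, h⟩
  have h2 : IsOp v w (opOf v w) := by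
    unfold opOf
    rw [dif_pos h1]
    exact h1.choose_spec
  exact h2.unique h

/-- the range -/
theorem IsOp.range {v w : ℕ → E} {T : E →L[ℝ] E} (h : IsOp v w T) {S : Submodule ℝ E}
    (hS : IsClosed (S : Set E)) (hw : ∀ i, w i ∈ S) (u : E) : T u ∈ S := by
  obtain ⟨y, hy, hu⟩ := orth_of_proj v u
  have h1 := h.orth _ hu
  rw [map_sub, sub_eq_zero] at h1
  rw [h1]
  have h2 : cspan v ≤ S.comap T.toLinearMap := by
    refine cspan_le (hS.preimage T.continuous) fun i => ?_
    rw [Submodule.mem_comap]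
    change T (v i) ∈ S
    rw [h.map]
    exact hw i
  exact h2 hy

/-- symmetry -/
theorem IsOp.symm {v w : ℕ → E} {T : E →L[ℝ] E} (h : IsOp v w T) (hw : ∀ i, w i ∈ cspan v)
    (hs : ∀ i j, ⟪w i, v j⟫_ℝ = ⟪v i, w j⟫_ℝ) (u u' : E) : ⟪T u, u'⟫_ℝ = ⟪u, T u'⟫_ℝ := by
  -- the closed subspace of all `y` with `⟪T y, v j⟫ = ⟪y, w j⟫`
  have key : ∀ j, ∀ y ∈ cspan v, ⟪T y, v j⟫_ℝ = ⟪y, w j⟫_ℝ := by
    intro j y hy
    let A : E →L[ℝ] ℝ := (innerSL ℝ (v j)).comp T - innerSL ℝ (w j)
    have hA : cspan v ≤ LinearMap.ker A.toLinearMap := by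
      refine cspan_le (ContinuousLinearMap.isClosed_ker A) fun i => ?_
      rw [LinearMap.mem_ker]
      change A (v i) = 0
      simp only [A, ContinuousLinearMap.sub_apply, ContinuousLinearMap.comp_apply,
        innerSL_apply_apply]
      rw [h.map, real_inner_comm, hs i j, real_inner_comm, sub_self]
    have := hA hy
    rw [LinearMap.mem_ker] at this
    have h2 : A y = 0 := this
    simp only [A, ContinuousLinearMap.sub_apply, ContinuousLinearMap.comp_apply,
      innerSL_apply_apply] at h2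
    rw [real_inner_comm, real_inner_comm (w j)]
    linarith
  have key2 : ∀ y ∈ cspan v, ∀ z ∈ cspan v, ⟪T y, z⟫_ℝ = ⟪y, T z⟫_ℝ := by
    intro y hy z hz
    let A : E →L[ℝ] ℝ := innerSL ℝ (T y) - (innerSL ℝ y).comp T
    have hA : cspan v ≤ LinearMap.ker A.toLinearMap := by
      refine cspan_le (ContinuousLinearMap.isClosed_ker A) fun i => ?_
      rw [LinearMap.mem_ker]
      change A (v i) = 0
      simp only [A, ContinuousLinearMap.sub_apply, ContinuousLinearMap.comp_apply,
        innerSL_apply_apply]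
      rw [h.map, key i y hy, sub_self]
    have := hA hz
    rw [LinearMap.mem_ker] at this
    have h2 : A z = 0 := this
    simp only [A, ContinuousLinearMap.sub_apply, ContinuousLinearMap.comp_apply,
      innerSL_apply_apply] at h2
    linarith
  obtain ⟨y, hy, hu⟩ := orth_of_proj v u
  obtain ⟨z, hz, hu'⟩ := orth_of_proj v u'
  have hT := h.orth _ hu
  have hT' := h.orth _ hu'
  rw [map_sub, sub_eq_zero] at hT hT'
  -- elements of the range are orthogonal to `u - y`, `u' - z`
  have horth : ∀ u0 : E, (∀ i, ⟪v i, u0⟫_ℝ = 0) → ∀ y ∈ cspan v, ⟪y, u0⟫_ℝ = 0 := by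
    intro u0 h0 y hy
    have h2 : cspan v ≤ (Submodule.span ℝ {u0})ᗮ := by
      refine cspan_le (Submodule.isClosed_orthogonal _) fun i => ?_
      rw [Submodule.mem_orthogonal_singleton_iff_inner_left]
      exact h0 i
    have h3 := h2 hy
    rw [Submodule.mem_orthogonal_singleton_iff_inner_left] at h3
    exact h3
  have r1 : T y ∈ cspan v := h.range (isClosed_cspan v) hw y
  have r2 : T z ∈ cspan v := h.range (isClosed_cspan v) hw z
  have e1 : ⟪T y, u' - z⟫_ℝ = 0 := horth _ hu' _ r1
  have e2 : ⟪T z, u - y⟫_ℝ = 0 := horth _ hu _ r2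
  rw [inner_sub_right] at e1 e2
  rw [hT, hT', real_inner_comm (T z) u]
  have e3 := key2 y hy z hz
  have e4 : ⟪T z, y⟫_ℝ = ⟪y, T z⟫_ℝ := real_inner_comm _ _
  linarith

end pointwise

end Vale.Agent.P233.H131
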