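import Vale.Agent.P233.Gig.IfE
import Vale.Agent.P233.H131.HessOp
import Vale.Agent.P233.H853.Hop2
import Vale.Agent.P233.H326.Dense

/-!
P233, block T1 (helper131), part 4: existence of the static data `Stat` of `Gig/IfE` (theorem
`blk_T1 : Blk_T1`); the general form is `exists_stat`.
-/

set_option linter.all false

open MeasureTheory Filter Topology Set
open scoped ENNReal NNReal InnerProductSpace

universe u

namespace Vale.Agent.P233.H131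

section abstract

variable {M : Type*} [MeasurableSpace M] {m : Measure M} {C : Calc m}
variable {E : Type*} [NormedAddCommGroup E] [InnerProductSpace ℝ E] [CompleteSpace E]
variable {Gr : (M →ₘ[m] ℝ) → M → E} {U : (M →ₘ[m] ℝ) → (M →ₘ[m] ℝ) → M → E}

/-- the bound of the Hessian (helper853) -/
theorem hop_bd [SigmaFinite m] [MeasurableSpace.CountablyGenerated M] (hC : IsGamma C) {κ : ℝ}
    (hB : C.BEi κ) (hG : IsGrad C Gr) (hU : IsHU C Gr U) {b : M →ₘ[m] ℝ} (hb : b ∈ C.Test) :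
    ∃ L : M → ℝ, Measurable L ∧ MemLp L 2 m ∧ (∀ x, 0 ≤ L x) ∧
      (∀ f ∈ C.Test, ∀ᵐ x ∂m, ‖U b f x‖ ≤ L x * ‖Gr f x‖) ∧
      ∫ x, L x ^ 2 ∂m ≤ I (C.lap b ^ 2) - κ * I (C.Γ b b) := by
  obtain ⟨D, hD0, hD2, hD, -, hI⟩ := H853.exists_hop hC hB hb
  have h0 : ∀ᵐ x ∂m, 0 ≤ D x := nonneg_iff_ae.1 hD0
  refine ⟨fun x => |D x|, D.stronglyMeasurable.measurable.norm, hD2.norm, fun x => abs_nonneg _,
    fun f hf => ?_, ?_⟩
  · filter_upwards [H853.hop_vec hC hB hG hU hb hD0 hD hf, h0] with x a1 a2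
    rw [abs_of_nonneg a2]
    exact a1
  · refine le_trans (le_of_eq ?_) hI
    unfold I
    refine integral_congr_ae ?_
    filter_upwards [sq_ae D] with x hx
    rw [hx, sq_abs]

theorem hopBd [SigmaFinite m] [MeasurableSpace.CountablyGenerated M] (hC : IsGamma C) {κ : ℝ}
    (hB : C.BEi κ) (hG : IsGrad C Gr) (hU : IsHU C Gr U) : HopBd C Gr U := by
  refine ⟨1 + |κ|, fun b hb => ?_⟩
  obtain ⟨L, -, h2, h3, h4, h5⟩ := hop_bd hC hB hG hU hb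
  refine ⟨L, h2, h3, h4, h5.trans ?_⟩
  have e1 : 0 ≤ I (C.lap b ^ 2) := I_sq_nonneg _
  have e2 : 0 ≤ I (C.Γ b b) := hC.E_nonneg (hC.tW hb)
  have e3 : -κ * I (C.Γ b b) ≤ |κ| * I (C.Γ b b) :=
    mul_le_mul_of_nonneg_right (neg_le_abs κ) e2
  nlinarith [abs_nonneg κ, mul_nonneg (abs_nonneg κ) e1]

/-- The static data, for a given gradient model and a given countable family. Everything that does
not depend on a base metric. -/
theorem exists_ops [SigmaFinite m] [MeasurableSpace.CountablyGenerated M] (hC : IsGamma C) {κ : ℝ}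
    (hB : C.BEi κ) (hG : IsGrad C Gr) {e : ℕ → M →ₘ[m] ℝ} (he : DenseT C e) :
    ∃ HO : (M →ₘ[m] ℝ) → M → E →L[ℝ] E,
      (∀ b ∈ C.Test, ∀ w : E, StronglyMeasurable fun x => HO b x w) ∧
      (∀ b ∈ C.Test, ∃ L : M → ℝ, Measurable L ∧ (∀ x, ‖HO b x‖ ≤ L x) ∧
        MemLp L 2 m ∧ ∫ x, L x ^ 2 ∂m ≤ (1 + |κ|) * (I (C.lap b ^ 2) + I (C.Γ b b))) ∧
      (∀ b ∈ C.Test, ∀ x, ∀ w w' : E, ⟪HO b x w, w'⟫_ℝ = ⟪w, HO b x w'⟫_ℝ) ∧
      (∀ b ∈ C.Test, ∀ a ∈ C.Test, ∀ c ∈ C.Test,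
        ∀ᵐ x ∂m, ⟪HO b x (Gr a x), Gr c x⟫_ℝ = C.hess b a c x) ∧
      (∀ b ∈ C.Test, ∀ b' ∈ C.Test, ∀ r : ℝ,
        ∀ᵐ x ∂m, HO (r • b + b') x = r • HO b x + HO b' x) ∧
      (∀ b ∈ C.Test, ∀ᵐ x ∂m, ∀ w : E, HO b x w ∈ cspan (fun j => Gr (e j) x)) ∧
      (∀ f ∈ C.Test, ∀ g ∈ C.Test,
        ∀ᵐ x ∂m, Gr (C.Γ f g) x = HO f x (Gr g x) + HO g x (Gr f x)) := by
  classical
  obtain ⟨U, hU⟩ := hC.exists_HU hB hG
  have hbd := hopBd hC hB hG hU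
  have h1 : ∀ b : M →ₘ[m] ℝ, ∃ (G : Set M) (L : M → ℝ), b ∈ C.Test →
      (Measurable L ∧ MemLp L 2 m ∧ (∀ x, 0 ≤ L x) ∧
      (∀ f ∈ C.Test, ∀ᵐ x ∂m, ‖U b f x‖ ≤ L x * ‖Gr f x‖) ∧
      ∫ x, L x ^ 2 ∂m ≤ I (C.lap b ^ 2) - κ * I (C.Γ b b)) ∧
      (MeasurableSet G ∧ (∀ᵐ x ∂m, x ∈ G) ∧
      (∀ x ∈ G, IsOp (fun i => Gr (e i) x) (fun i => U b (e i) x) (HOf Gr U e b x) ∧
        ‖HOf Gr U e b x‖ ≤ L x ∧ (∀ i, U b (e i) x ∈ cspan (fun i => Gr (e i) x)) ∧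
        ∀ v w : E, ⟪HOf Gr U e b x v, w⟫_ℝ = ⟪v, HOf Gr U e b x w⟫_ℝ) ∧
      ∀ v : E, StronglyMeasurable fun x => G.indicator (fun x => HOf Gr U e b x) x v) := by
    intro b
    by_cases hb : b ∈ C.Test
    · obtain ⟨L, hL⟩ := hop_bd hC hB hG hU hb
      obtain ⟨G, hG'⟩ := HOf_good hC hB hG hU he hb hL.2.2.1 hL.2.2.2.1
      exact ⟨G, L, fun _ => ⟨hL, hG'⟩⟩
    · exact ⟨∅, 0, fun h => absurd h hb⟩
  choose G L hGL using h1
  have hae : ∀ b ∈ C.Test, ∀ᵐ x ∂m, (G b).indicator (fun x => HOf Gr U e b x) x = HOf Gr U e b x := by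
    intro b hb
    filter_upwards [(hGL b hb).2.2.1] with x hx
    exact Set.indicator_of_mem hx _
  refine ⟨fun b x => (G b).indicator (fun x => HOf Gr U e b x) x, fun b hb w => ?_, fun b hb => ?_,
    fun b hb x w w' => ?_, fun b hb a ha c hc => ?_, fun b hb b' hb' r => ?_, fun b hb => ?_,
    fun f hf g hg => ?_⟩
  · exact (hGL b hb).2.2.2.2 w
  · obtain ⟨⟨a1, a2, a3, a4, a5⟩, b1, b2, b3, b4⟩ := hGL b hb
    refine ⟨L b, a1, fun x => ?_, a2, a5.trans ?_⟩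
    · by_cases hx : x ∈ G b
      · simp only [Set.indicator_of_mem hx]
        exact (b3 x hx).2.1
      · simp only [Set.indicator_of_notMem hx, norm_zero]
        exact a3 x
    · have e1 : 0 ≤ I (C.lap b ^ 2) := I_sq_nonneg _
      have e2 : 0 ≤ I (C.Γ b b) := hC.E_nonneg (hC.tW hb)
      have e3 : -κ * I (C.Γ b b) ≤ |κ| * I (C.Γ b b) :=
        mul_le_mul_of_nonneg_right (neg_le_abs κ) e2
      nlinarith [abs_nonneg κ, mul_nonneg (abs_nonneg κ) e1]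
  · by_cases hx : x ∈ G b
    · simp only [Set.indicator_of_mem hx]
      exact ((hGL b hb).2.2.2.1 x hx).2.2.2 w w'
    · simp only [Set.indicator_of_notMem hx, ContinuousLinearMap.zero_apply, inner_zero_left,
        inner_zero_right]
  · obtain ⟨⟨a1, a2, a3, a4, a5⟩, -⟩ := hGL b hb
    filter_upwards [hae b hb, HOf_grad hC hB hG hU he hb a3 a4 ha, hU.inner b hb a ha c hc]
      with x c1 c2 c3
    rw [c1, c2, c3]
  · have hs := hC.test_add hB (hC.test_smul hB r hb) hb'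
    filter_upwards [hae b hb, hae b' hb', hae _ hs, HOf_lin hC hB hG hU he hbd hb hb' r]
      with x c1 c2 c3 c4
    rw [c1, c2, c3, c4]
  · filter_upwards [hae b hb, (hGL b hb).2.2.1] with x c1 c2
    intro w
    rw [c1]
    have := (hGL b hb).2.2.2.1 x c2
    exact this.1.range (isClosed_cspan _) this.2.2.1 w
  · filter_upwards [hae f hf, hae g hg, HOf_prod hC hB hG hU he hbd hf hg] with x c1 c2 c3
    rw [c1, c2, c3]

end abstract

/-! ### the static data of part E -/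

section metric

variable {M : Type u} [MetricSpace M] [MeasurableSpace M] {m : Measure M}
variable {E : Type*} [NormedAddCommGroup E] [InnerProductSpace ℝ E] [CompleteSpace E]
variable {Gr : (M →ₘ[m] ℝ) → M → E}

/-- The Hessian operators with all properties: `IsHess`, and in addition strong measurability,
symmetry and the norm bound at every point. -/
theorem exists_isHess [SigmaFinite m] [MeasurableSpace.CountablyGenerated M] {C : Calc m}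
    (hC : IsGamma C) {κ : ℝ} (hB : C.BEi κ) (hG : IsGrad C Gr) :
    ∃ HO : (M →ₘ[m] ℝ) → M → E →L[ℝ] E, IsHess C Gr HO ∧
      (∀ b ∈ C.Test, ∀ w : E, StronglyMeasurable fun x => HO b x w) ∧
      (∀ b ∈ C.Test, ∃ L : M → ℝ, Measurable L ∧ (∀ x, ‖HO b x‖ ≤ L x) ∧
        MemLp L 2 m ∧ ∫ x, L x ^ 2 ∂m ≤ (1 + |κ|) * (I (C.lap b ^ 2) + I (C.Γ b b))) ∧
      (∀ b ∈ C.Test, ∀ x, ∀ w w' : E, ⟪HO b x w, w'⟫_ℝ = ⟪w, HO b x w'⟫_ℝ) := by
  obtain ⟨e, he⟩ := exists_denseT hC hB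
  obtain ⟨HO, h1, h2, h3, h4, h5, h6, h7⟩ := exists_ops hC hB hG he
  refine ⟨HO, ⟨fun b hb v => (h1 b hb v).aestronglyMeasurable, ⟨1 + |κ|, fun b hb => ?_⟩,
    fun b hb => Eventually.of_forall fun x v w => h3 b hb x v w, h4, h5, h7,
    fun e' he1 he2 b hb => ?_⟩, h1, h2, h3⟩
  · obtain ⟨L, -, a2, a3, a4⟩ := h2 b hb
    exact ⟨L, a3, Eventually.of_forall a2, a4⟩
  · filter_upwards [h6 b hb, cspan_eq hC hG he ⟨he1, he2⟩] with x a2 a3
    intro v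
    have h1 := a2 v
    rw [a3] at h1
    rw [← Submodule.topologicalClosure_coe]
    exact h1

/-- `Stat` for any gradient model with strongly measurable gradients and any countable family `e`
in `TestI` closed under rational combinations that is dense in the graph norm and in `W` -/
theorem exists_stat [SigmaFinite m] [MeasurableSpace.CountablyGenerated M] {C : Calc m}
    (hC : IsGamma C) {κ : ℝ} (hB : C.BEi κ) (hG : IsGrad C Gr)
    (hGm : ∀ f, StronglyMeasurable (Gr f)) {e : ℕ → M →ₘ[m] ℝ} (heI : ∀ i, e i ∈ C.TestI)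
    (hc : ∀ c : ℕ →₀ ℚ, ∃ j, e j = cmb e c)
    (hd : ∀ b h : M →ₘ[m] ℝ, C.IsLap b h → ∀ δ > 0, ∃ i,
      C.nrm2 (e i - b) + I ((C.lap (e i) - h) ^ 2) < δ)
    (hdW : ∀ f ∈ C.W, ∀ δ > 0, ∃ i, C.nrm2 (e i - f) < δ) :
    ∃ HO : (M →ₘ[m] ℝ) → M → E →L[ℝ] E, Stat C Gr HO e ∧
      (∀ b ∈ C.Test, ∀ w : E, StronglyMeasurable fun x => HO b x w) ∧
      (∀ b ∈ C.Test, ∃ L : M → ℝ, Measurable L ∧ (∀ x, ‖HO b x‖ ≤ L x) ∧
        MemLp L 2 m ∧ ∫ x, L x ^ 2 ∂m ≤ (1 + |κ|) * (I (C.lap b ^ 2) + I (C.Γ b b))) ∧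
      (∀ b ∈ C.Test, ∀ x, ∀ w w' : E, ⟪HO b x w, w'⟫_ℝ = ⟪w, HO b x w'⟫_ℝ) := by
  obtain ⟨HO, h0, h1, h2, h3⟩ := exists_isHess hC hB hG
  refine ⟨HO, ⟨hG, fun f _ => hGm f, h0, heI, hc, fun h hh ε hε => ?_, fun f hf ε hε => ?_⟩,
    h1, h2, h3⟩
  · have hhL := hC.test_isLap hh.1
    obtain ⟨i, hi⟩ := hd h _ hhL ε hε
    refine ⟨i, ?_⟩
    have e1 : C.nrm2 (h - e i) = C.nrm2 (e i - h) :=
      hC.nrm2_sub_comm (hC.tW hh.1) (hC.tW (heI i).1)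
    have e2 : C.lap (h - e i) = C.lap h - C.lap (e i) := by
      rw [sub_eq_add_neg, ← neg_one_smul ℝ (e i),
        hC.lap_add hB hh.1 (hC.test_smul hB _ (heI i).1), hC.lap_smul hB _ (heI i).1,
        neg_one_smul, ← sub_eq_add_neg]
    have e3 : (C.lap h - C.lap (e i)) ^ 2 = (C.lap (e i) - C.lap h) ^ 2 := by ring
    rw [e1, e2, e3]
    exact hi
  · obtain ⟨i, hi⟩ := hdW f hf ε hε
    exact ⟨i, by rwa [hC.nrm2_sub_comm hf (hC.tW (heI i).1)]⟩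

end metric

/-- **Block T1**, with a family of functions of bounded support and everywhere properties of the
Hessian operators -/
theorem exists_stat_sob {M : Type u} [MetricSpace M] [MeasurableSpace M] [BorelSpace M]
    [SecondCountableTopology M] {m : Measure M} {K N : ℝ} (h : Std m K N) :
    ∃ (Gr : (M →ₘ[m] ℝ) → M → lp (fun _ : ℕ => ℝ) 2)
    (HO : (M →ₘ[m] ℝ) → M → lp (fun _ : ℕ => ℝ) 2 →L[ℝ] lp (fun _ : ℕ => ℝ) 2)
    (e : ℕ → M →ₘ[m] ℝ), Stat (sob m) Gr HO e ∧ DenseFam (sob m) (TB (sob m)) e ∧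
      (∀ f, StronglyMeasurable (Gr f)) ∧
      (∀ b ∈ (sob m).Test, ∀ w, StronglyMeasurable fun x => HO b x w) ∧
      (∀ b ∈ (sob m).Test, ∃ L : M → ℝ, Measurable L ∧ (∀ x, ‖HO b x‖ ≤ L x) ∧
        MemLp L 2 m ∧ ∫ x, L x ^ 2 ∂m
          ≤ (1 + |K|) * (I ((sob m).lap b ^ 2) + I ((sob m).Γ b b))) ∧
      (∀ b ∈ (sob m).Test, ∀ x, ∀ w w', ⟪HO b x w, w'⟫_ℝ = ⟪w, HO b x w'⟫_ℝ) := by
  have hb := h.base
  have hsf := hb.sf
  obtain ⟨Gr, hG, hGm⟩ := hb.hC.toIsDir.exists_grad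
  obtain ⟨e, he⟩ := h.exists_denseFam
  have heI : ∀ i, e i ∈ (sob m).TestI := fun i => (he.mem i).1
  obtain ⟨HO, hS, h1, h2, h3⟩ := exists_stat hb.hC hb.hB hG hGm heI he.comb he.dense he.denseW
  exact ⟨Gr, HO, e, hS, he, hGm, h1, h2, h3⟩

/-- **Block T1.** -/
theorem blk_T1 : Blk_T1.{u} := by
  intro M _ _ _ _ _ m K N h
  obtain ⟨Gr, HO, e, hS, -⟩ := exists_stat_sob h
  exact ⟨_, _, _, inferInstance, Gr, HO, e, hS⟩

end Vale.Agent.P233.H131
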