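import Vale.Agent.P233.Gig.IfE
import Vale.Agent.P233.H131.HessOp
import Mathlib.MeasureTheory.Integral.IntervalIntegral.LebesgueDifferentiationThm

/-!
P233, block C6b (helper131 for helper994), statement (B2): a bounded sequence of space-time fields
`F n`, with values in the closed span of the gradients of the dense family, converges weakly to `0`
in `L²((s,1] × M; E)` as soon as it does so against the test fields
`1_(a,b](t) e_j(x) ∇e_i(x)`.
-/

set_option linter.all false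

open MeasureTheory Filter Topology Set
open scoped ENNReal NNReal InnerProductSpace

universe u v

namespace Vale.Agent.P233.H131

section hilbert

variable {H : Type*} [NormedAddCommGroup H] [InnerProductSpace ℝ H] [CompleteSpace H]

/-- weak convergence to zero from a total set -/
theorem tendsto_inner_zero {ι : Type*} {l : Filter ι} {x : ι → H} {C : ℝ}
    (hb : ∀ᶠ n in l, ‖x n‖ ≤ C) {Y : Set H}
    (hY : ∀ y ∈ Y, Tendsto (fun n => ⟪x n, y⟫_ℝ) l (𝓝 0))
    (hO : ∀ z, (∀ y ∈ Y, ⟪z, y⟫_ℝ = 0) → ∀ᶠ n in l, ⟪x n, z⟫_ℝ = 0) (z : H) :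
    Tendsto (fun n => ⟪x n, z⟫_ℝ) l (𝓝 0) := by
  have hspan : ∀ y ∈ Submodule.span ℝ Y, Tendsto (fun n => ⟪x n, y⟫_ℝ) l (𝓝 0) := by
    intro y hy
    induction hy using Submodule.span_induction with
    | mem y hy => exact hY y hy
    | zero => simpa using (tendsto_const_nhds : Tendsto (fun _ : ι => (0 : ℝ)) l (𝓝 0))
    | add a b _ _ ha hb => simpa [inner_add_right] using ha.add hb
    | smul c a _ ha => simpa [inner_smul_right] using ha.const_mul c
  have hcl : ∀ y ∈ (Submodule.span ℝ Y).topologicalClosure,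
      Tendsto (fun n => ⟪x n, y⟫_ℝ) l (𝓝 0) := by
    intro y hy
    rw [Metric.tendsto_nhds]
    intro δ hδ
    have hy' : y ∈ closure ((Submodule.span ℝ Y : Submodule ℝ H) : Set H) := hy
    obtain ⟨w, hw, hyw⟩ := Metric.mem_closure_iff.1 hy' (δ / (2 * (|C| + 1))) (by positivity)
    filter_upwards [hb, (Metric.tendsto_nhds.1 (hspan w hw)) (δ / 2) (by positivity)] with n h1 h2
    rw [Real.dist_eq, sub_zero] at h2 ⊢
    have h3 : ⟪x n, y⟫_ℝ = ⟪x n, w⟫_ℝ + ⟪x n, y - w⟫_ℝ := by rw [inner_sub_right]; ring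
    have h4 : |⟪x n, y - w⟫_ℝ| ≤ ‖x n‖ * ‖y - w‖ := abs_real_inner_le_norm _ _
    rw [dist_eq_norm] at hyw
    have h5 : ‖x n‖ * ‖y - w‖ ≤ (|C| + 1) * (δ / (2 * (|C| + 1))) := by
      have : ‖x n‖ ≤ |C| + 1 := h1.trans (by linarith [le_abs_self C])
      exact mul_le_mul this hyw.le (norm_nonneg _) (by positivity)
    have h6 : (|C| + 1) * (δ / (2 * (|C| + 1))) = δ / 2 := by field_simp
    rw [h3]
    calc |⟪x n, w⟫_ℝ + ⟪x n, y - w⟫_ℝ| ≤ |⟪x n, w⟫_ℝ| + |⟪x n, y - w⟫_ℝ| := abs_add_le _ _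
      _ < δ := by linarith
  set S := (Submodule.span ℝ Y).topologicalClosure with hSdef
  haveI : CompleteSpace S := (Submodule.isClosed_topologicalClosure _).completeSpace_coe
  obtain ⟨a, ha, b, hbS, rfl⟩ := Submodule.exists_add_mem_mem_orthogonal (K := S) z
  have h1 := hcl a ha
  have h2 : ∀ᶠ n in l, ⟪x n, b⟫_ℝ = 0 := by
    refine hO b fun y hy => ?_
    have : y ∈ S := Submodule.le_topologicalClosure _ (Submodule.subset_span hy)
    rw [real_inner_comm]
    exact (Submodule.mem_orthogonal S b).1 hbS y this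
  refine h1.congr' ?_
  filter_upwards [h2] with n hn
  rw [inner_add_right, hn, add_zero]

end hilbert

/-- a function on an interval whose integrals over all subintervals vanish is zero a.e. -/
theorem ae_zero_of_Ioc {s T : ℝ} {g : ℝ → ℝ} (hg : Integrable g (volume.restrict (Ioc s T)))
    (h : ∀ a b, s ≤ a → a ≤ b → b ≤ T → ∫ t in Ioc a b, g t = 0) :
    ∀ᵐ t ∂(volume.restrict (Ioc s T)), g t = 0 := by
  rcases le_or_gt T s with hTs | hsT
  · simp [Ioc_eq_empty_of_le hTs]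
  have hi : IntervalIntegrable g volume s T := by
    rw [intervalIntegrable_iff_integrableOn_Ioc_of_le hsT.le]
    exact hg
  have h1 := hi.ae_hasDerivAt_integral
  rw [uIcc_of_le hsT.le] at h1
  have h2 : ∀ᵐ t : ℝ, t ≠ T := by simp [ae_iff, measure_singleton]
  rw [ae_restrict_iff' measurableSet_Ioc]
  filter_upwards [h1, h2] with t ht htT hts
  have hd := ht ⟨hts.1.le, hts.2⟩ s ⟨le_rfl, hsT.le⟩
  have hnb : Ioo s T ∈ 𝓝 t := Ioo_mem_nhds hts.1 (lt_of_le_of_ne hts.2 htT)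
  have hev : (fun x => ∫ y in s..x, g y) =ᶠ[𝓝 t] fun _ => (0 : ℝ) := by
    filter_upwards [hnb] with y hy
    rw [intervalIntegral.integral_of_le hy.1.le]
    exact h s y le_rfl hy.1.le hy.2.le
  exact hd.unique ((hasDerivAt_const t (0 : ℝ)).congr_of_eventuallyEq hev)

section total

variable {M : Type*} [MeasurableSpace M] {m : Measure M} [SigmaFinite m]
variable {E : Type*} [NormedAddCommGroup E] [InnerProductSpace ℝ E] [CompleteSpace E]

theorem memLp_snd {s : ℝ} {f : M → E} (hf : MemLp f 2 m) :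
    MemLp (fun z : ℝ × M => f z.2) 2 ((volume.restrict (Ioc s 1)).prod m) := by
  have h1 : MemLp f 2 (Measure.map Prod.snd ((volume.restrict (Ioc s 1)).prod m)) := by
    rw [Measure.map_snd_prod]
    exact hf.smul_measure (by simp)
  exact h1.comp_of_map measurable_snd.aemeasurable

omit [CompleteSpace E] in
theorem integrable_inner' {α : Type*} [MeasurableSpace α] {μ : Measure α} {f g : α → E}
    (hf : MemLp f 2 μ) (hg : MemLp g 2 μ) : Integrable (fun z => ⟪f z, g z⟫_ℝ) μ := by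
  refine (hf.norm.integrable_mul hg.norm).mono (hf.1.inner hg.1) (Eventually.of_forall fun z => ?_)
  rw [Real.norm_eq_abs, Real.norm_eq_abs, Pi.mul_apply, abs_mul, abs_norm, abs_norm]
  exact abs_real_inner_le_norm _ _

/-- the test fields -/
noncomputable def tf (e : ℕ → M →ₘ[m] ℝ) (G : ℕ → M → E) (a b : ℝ) (i j : ℕ) (z : ℝ × M) : E :=
  ((Ioc a b).indicator (fun _ => (1 : ℝ)) z.1 * e j z.2) • G i z.2

theorem tf_memLp {s : ℝ} {e : ℕ → M →ₘ[m] ℝ} {G : ℕ → M → E} (hG2 : ∀ i, MemLp (G i) 2 m)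
    (heb : ∀ i, ∃ B : ℝ, ∀ᵐ x ∂m, |e i x| ≤ B) (a b : ℝ) (i j : ℕ) :
    MemLp (tf e G a b i j) 2 ((volume.restrict (Ioc s 1)).prod m) := by
  obtain ⟨B, hB⟩ := heb j
  have h1 := (memLp_snd (s := s) (hG2 i)).norm.const_mul |B|
  have hm1 : AEStronglyMeasurable (fun z : ℝ × M => (Ioc a b).indicator (fun _ => (1 : ℝ)) z.1)
      ((volume.restrict (Ioc s 1)).prod m) :=
    ((measurable_const.indicator measurableSet_Ioc).comp measurable_fst).aestronglyMeasurable
  have hm2 : AEStronglyMeasurable (fun z : ℝ × M => e j z.2)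
      ((volume.restrict (Ioc s 1)).prod m) :=
    ((e j).stronglyMeasurable.comp_measurable measurable_snd).aestronglyMeasurable
  refine h1.mono ((hm1.mul hm2).smul (memLp_snd (s := s) (hG2 i)).1) ?_
  have h2 : ∀ᵐ z ∂((volume.restrict (Ioc s 1)).prod m), |e j z.2| ≤ B :=
    Measure.quasiMeasurePreserving_snd.ae hB
  filter_upwards [h2] with z hz
  rw [tf, norm_smul, norm_mul, Real.norm_eq_abs, Real.norm_eq_abs, Real.norm_eq_abs, abs_mul,
    abs_norm, abs_abs]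
  have h3 : |(Ioc a b).indicator (fun _ => (1 : ℝ)) z.1| ≤ 1 := by
    by_cases h : z.1 ∈ Ioc a b <;> simp [h]
  have h4 : |e j z.2| ≤ |B| := hz.trans (le_abs_self _)
  have h5 : |(Ioc a b).indicator (fun _ => (1 : ℝ)) z.1| * |e j z.2| ≤ 1 * |B| :=
    mul_le_mul h3 h4 (abs_nonneg _) zero_le_one
  rw [one_mul] at h5
  exact mul_le_mul_of_nonneg_right h5 (norm_nonneg _)

/-- a field which is orthogonal to all test fields is pointwise orthogonal to all `G i` -/
theorem orth_of_tf {s : ℝ} {e : ℕ → M →ₘ[m] ℝ} {G : ℕ → M → E}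
    (hG2 : ∀ i, MemLp (G i) 2 m) (hGb : ∀ i, ∃ B : ℝ, ∀ᵐ x ∂m, ‖G i x‖ ≤ B)
    (heb : ∀ i, ∃ B : ℝ, ∀ᵐ x ∂m, |e i x| ≤ B)
    (hd : ∀ g : M → ℝ, MemLp g 2 m → (∀ i, ∫ x, e i x * g x ∂m = 0) → ∀ᵐ x ∂m, g x = 0)
    {Φ : ℝ × M → E} (hΦ : MemLp Φ 2 ((volume.restrict (Ioc s 1)).prod m))
    (h : ∀ a b, s ≤ a → a ≤ b → b ≤ 1 → ∀ i j,
      ∫ z, ⟪Φ z, tf e G a b i j z⟫_ℝ ∂((volume.restrict (Ioc s 1)).prod m) = 0) :
    ∀ᵐ z ∂((volume.restrict (Ioc s 1)).prod m), ∀ i, ⟪Φ z, G i z.2⟫_ℝ = 0 := by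
  set ν := (volume.restrict (Ioc s (1 : ℝ))) with hν
  -- slices of `Φ` are in `L²`
  have hsl : ∀ᵐ t ∂ν, MemLp (fun x => Φ (t, x)) 2 m := by
    have h1 : Integrable (fun z => ‖Φ z‖ ^ 2) (ν.prod m) := hΦ.integrable_norm_pow (by norm_num)
    have h2 := (integrable_prod_iff h1.1).1 h1
    have h3 := hΦ.1.prodMk_left
    filter_upwards [h2.1, h3] with t h4 h5
    rw [memLp_two_iff_integrable_sq_norm h5]
    exact h4
  -- the time functions
  have hint : ∀ i j, Integrable (fun z : ℝ × M => e j z.2 * ⟪Φ z, G i z.2⟫_ℝ) (ν.prod m) := by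
    intro i j
    obtain ⟨B, hB⟩ := heb j
    have h1 : Integrable (fun z : ℝ × M => ⟪Φ z, G i z.2⟫_ℝ) (ν.prod m) :=
      integrable_inner' hΦ (memLp_snd (s := s) (hG2 i))
    refine h1.bdd_mul (c := B)
      ((e j).stronglyMeasurable.comp_measurable measurable_snd).aestronglyMeasurable ?_
    filter_upwards [Measure.quasiMeasurePreserving_snd.ae hB] with z hz
    exact hz
  have hz : ∀ i j, ∀ᵐ t ∂ν, ∫ x, e j x * ⟪Φ (t, x), G i x⟫_ℝ ∂m = 0 := by
    intro i j
    refine ae_zero_of_Ioc (hint i j).integral_prod_left fun a b ha hab hb => ?_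
    have h1 := h a b ha hab hb i j
    have h2 : ∀ z : ℝ × M, ⟪Φ z, tf e G a b i j z⟫_ℝ
        = (Ioc a b).indicator (fun _ => (1 : ℝ)) z.1 * (e j z.2 * ⟪Φ z, G i z.2⟫_ℝ) := by
      intro z
      rw [tf, inner_smul_right]
      ring
    simp_rw [h2] at h1
    have h3 : Integrable (fun z : ℝ × M =>
        (Ioc a b).indicator (fun _ => (1 : ℝ)) z.1 * (e j z.2 * ⟪Φ z, G i z.2⟫_ℝ)) (ν.prod m) := by
      refine (hint i j).bdd_mul (c := 1)
        ((measurable_const.indicator measurableSet_Ioc).comp measurable_fst).aestronglyMeasurable ?_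
      refine Eventually.of_forall fun z => ?_
      by_cases hz : z.1 ∈ Ioc a b <;> simp [hz]
    rw [integral_prod _ h3] at h1
    have h4 : ∀ t : ℝ, ∫ x, (Ioc a b).indicator (fun _ => (1 : ℝ)) t *
        (e j x * ⟪Φ (t, x), G i x⟫_ℝ) ∂m
        = (Ioc a b).indicator (fun t => ∫ x, e j x * ⟪Φ (t, x), G i x⟫_ℝ ∂m) t := by
      intro t
      by_cases ht : t ∈ Ioc a b
      · simp [ht]
      · simp [ht]
    simp_rw [h4] at h1
    rw [integral_indicator measurableSet_Ioc, hν, Measure.restrict_restrict measurableSet_Ioc,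
      inter_eq_left.2 (Ioc_subset_Ioc ha hb)] at h1
    exact h1
  have hz' : ∀ᵐ t ∂ν, ∀ᵐ x ∂m, ∀ i, ⟪Φ (t, x), G i x⟫_ℝ = 0 := by
    have h1 : ∀ᵐ t ∂ν, ∀ i j, ∫ x, e j x * ⟪Φ (t, x), G i x⟫_ℝ ∂m = 0 :=
      ae_all_iff.2 fun i => ae_all_iff.2 fun j => hz i j
    filter_upwards [h1, hsl] with t ht hts
    refine ae_all_iff.2 fun i => ?_
    refine hd _ ?_ (fun j => ht i j)
    obtain ⟨B, hB⟩ := hGb i
    refine (hts.norm.const_mul |B|).mono (hts.1.inner (hG2 i).1) ?_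
    filter_upwards [hB] with x hx
    rw [Real.norm_eq_abs, Real.norm_eq_abs, abs_mul, abs_abs, abs_norm]
    refine (abs_real_inner_le_norm _ _).trans ?_
    rw [mul_comm]
    exact mul_le_mul_of_nonneg_right (hx.trans (le_abs_self _)) (norm_nonneg _)
  refine ae_all_iff.2 fun i => ?_
  have h1 : Integrable (fun z : ℝ × M => ⟪Φ z, G i z.2⟫_ℝ) (ν.prod m) :=
    integrable_inner' hΦ (memLp_snd (s := s) (hG2 i))
  have h2 : ∫ z, ‖⟪Φ z, G i z.2⟫_ℝ‖ ∂(ν.prod m) = 0 := by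
    rw [integral_prod _ h1.norm]
    refine integral_eq_zero_of_ae ?_
    filter_upwards [hz'] with t ht
    refine integral_eq_zero_of_ae ?_
    filter_upwards [ht] with x hx
    simp [hx i]
  have h3 := (integral_eq_zero_iff_of_nonneg (fun z => norm_nonneg _) h1.norm).1 h2
  filter_upwards [h3] with z hz
  exact norm_eq_zero.1 hz

/-- (B2) of helper994's note 9266, general form. -/
theorem weak_zero {ι : Type*} {l : Filter ι} {s : ℝ} {e : ℕ → M →ₘ[m] ℝ} {G : ℕ → M → E}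
    (hG2 : ∀ i, MemLp (G i) 2 m) (hGb : ∀ i, ∃ B : ℝ, ∀ᵐ x ∂m, ‖G i x‖ ≤ B)
    (heb : ∀ i, ∃ B : ℝ, ∀ᵐ x ∂m, |e i x| ≤ B)
    (hd : ∀ g : M → ℝ, MemLp g 2 m → (∀ i, ∫ x, e i x * g x ∂m = 0) → ∀ᵐ x ∂m, g x = 0)
    {F : ι → ℝ × M → E} {K : ℝ}
    (hF : ∀ᶠ n in l, MemLp (F n) 2 ((volume.restrict (Ioc s 1)).prod m) ∧
      ∫ z, ‖F n z‖ ^ 2 ∂((volume.restrict (Ioc s 1)).prod m) ≤ K ∧
      ∀ᵐ z ∂((volume.restrict (Ioc s 1)).prod m),
        F n z ∈ (Submodule.span ℝ (range fun j => G j z.2)).topologicalClosure)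
    (hT : ∀ a b, s ≤ a → a ≤ b → b ≤ 1 → ∀ i j,
      Tendsto (fun n => ∫ z, (Ioc a b).indicator (fun _ => (1 : ℝ)) z.1 *
        (e j z.2 * ⟪F n z, G i z.2⟫_ℝ) ∂((volume.restrict (Ioc s 1)).prod m)) l (𝓝 0))
    {Φ : ℝ × M → E} (hΦ : MemLp Φ 2 ((volume.restrict (Ioc s 1)).prod m)) :
    Tendsto (fun n => ∫ z, ⟪F n z, Φ z⟫_ℝ ∂((volume.restrict (Ioc s 1)).prod m)) l (𝓝 0) := by
  classical
  set μ := (volume.restrict (Ioc s (1 : ℝ))).prod m with hμ
  set X : ι → Lp E 2 μ := fun n => if h : MemLp (F n) 2 μ then h.toLp (F n) else 0 with hX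
  have hXn : ∀ n, ∀ h : MemLp (F n) 2 μ, X n = h.toLp (F n) := fun n h => by simp [hX, h]
  have hin : ∀ n, MemLp (F n) 2 μ → ∀ (Ψ : ℝ × M → E) (hΨ : MemLp Ψ 2 μ),
      ⟪X n, hΨ.toLp Ψ⟫_ℝ = ∫ z, ⟪F n z, Ψ z⟫_ℝ ∂μ := by
    intro n h Ψ hΨ
    rw [hXn n h, L2.inner_def]
    refine integral_congr_ae ?_
    filter_upwards [h.coeFn_toLp, hΨ.coeFn_toLp] with z h1 h2
    rw [h1, h2]
  have hb : ∀ᶠ n in l, ‖X n‖ ≤ √K := by
    filter_upwards [hF] with n hn
    refine Real.le_sqrt_of_sq_le ?_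
    rw [← real_inner_self_eq_norm_sq]
    nth_rw 2 [hXn n hn.1]
    rw [hin n hn.1 (F n) hn.1]
    refine le_trans (le_of_eq ?_) hn.2.1
    refine integral_congr_ae (Eventually.of_forall fun z => ?_)
    exact real_inner_self_eq_norm_sq _
  have hfin : Tendsto (fun n => ⟪X n, hΦ.toLp Φ⟫_ℝ) l (𝓝 0) := by
    refine tendsto_inner_zero hb
      (Y := {y | ∃ a b i j, s ≤ a ∧ a ≤ b ∧ b ≤ 1 ∧ y = (tf_memLp (s := s) hG2 heb a b i j).toLp _})
      ?_ ?_ _
    · rintro _ ⟨a, b, i, j, ha, hab, hb', rfl⟩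
      refine (hT a b ha hab hb' i j).congr' ?_
      filter_upwards [hF] with n hn
      rw [hin n hn.1]
      refine integral_congr_ae (Eventually.of_forall fun z => ?_)
      simp only [tf, inner_smul_right]
      ring
    · intro y hy
      have hy2 : MemLp (y : ℝ × M → E) 2 μ := Lp.memLp y
      have hyy : hy2.toLp (y : ℝ × M → E) = y := Lp.toLp_coeFn y hy2
      have h1 := orth_of_tf (s := s) (G := G) hG2 hGb heb hd hy2 (fun a b ha hab hb' i j => by
        have h2 := hy _ ⟨a, b, i, j, ha, hab, hb', rfl⟩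
        rw [L2.inner_def] at h2
        refine Eq.trans (integral_congr_ae ?_) h2
        filter_upwards [(tf_memLp (s := s) hG2 heb a b i j).coeFn_toLp] with z hz
        rw [hz])
      filter_upwards [hF] with n hn
      rw [← hyy, hin n hn.1]
      refine integral_eq_zero_of_ae ?_
      filter_upwards [h1, hn.2.2] with z h3 h4
      have h5 : ∀ w ∈ (Submodule.span ℝ (range fun j => G j z.2)).topologicalClosure,
          ⟪w, y z⟫_ℝ = 0 := by
        intro w hw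
        have hcl : IsClosed {w : E | ⟪w, y z⟫_ℝ = 0} :=
          isClosed_eq (by fun_prop) continuous_const
        refine hcl.closure_subset_iff.2 ?_ hw
        intro w hw
        show ⟪w, y z⟫_ℝ = 0
        induction hw using Submodule.span_induction with
        | mem w hw => obtain ⟨i, rfl⟩ := hw; rw [real_inner_comm]; exact h3 i
        | zero => simp
        | add a b _ _ ha hb => rw [inner_add_left, ha, hb, add_zero]
        | smul c a _ ha => rw [inner_smul_left, ha, mul_zero]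
      exact h5 _ h4
  refine hfin.congr' ?_
  filter_upwards [hF] with n hn
  exact hin n hn.1 Φ hΦ

end total

section stat

variable {M : Type u} [MetricSpace M] [MeasurableSpace M] {m : Measure M} [SigmaFinite m]
variable {C : Calc m}
variable {E : Type v} [NormedAddCommGroup E] [InnerProductSpace ℝ E] [CompleteSpace E]
variable {Gr : (M →ₘ[m] ℝ) → M → E} {HO : (M →ₘ[m] ℝ) → M → E →L[ℝ] E} {e : ℕ → M →ₘ[m] ℝ}

omit [SigmaFinite m] [CompleteSpace E] in
/-- an `L²` function orthogonal to the dense family vanishes -/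
theorem stat_orth (hC : IsGamma C) (hS : Stat C Gr HO e) {g : M → ℝ} (hg : MemLp g 2 m)
    (h : ∀ i, ∫ x, e i x * g x ∂m = 0) : ∀ᵐ x ∂m, g x = 0 := by
  set f : M →ₘ[m] ℝ := AEEqFun.mk g hg.1 with hf
  have hfg : ⇑f =ᵐ[m] g := AEEqFun.coeFn_mk g hg.1
  have hf2 : MemLp f 2 m := hg.ae_eq hfg.symm
  have h0 : ∀ i, I (f * e i) = 0 := by
    intro i
    rw [← h i]
    refine integral_congr_ae ?_
    filter_upwards [AEEqFun.coeFn_mul f (e i), hfg] with x h1 h2
    rw [h1, Pi.mul_apply, h2, mul_comm]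
  have hz : f = 0 := by
    refine hC.toIsDir.eq_zero_of_orth hf2 fun w hw => ?_
    have hw2 := hC.memLp w hw
    have h1 : ∀ ε > 0, I (f * w) ^ 2 ≤ I (f ^ 2) * ε := by
      intro ε hε
      obtain ⟨i, hi⟩ := hS.denseW w hw ε hε
      have heW : e i ∈ C.W := hC.tW (hS.testI i).1
      have he2 := hC.memLp (e i) heW
      have h2 : I (f * w) = I (f * (w - e i)) := by
        rw [mul_sub, I_sub (mem_mul_22 hf2 hw2) (mem_mul_22 hf2 he2), h0 i, sub_zero]
      rw [h2]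
      refine (I_cs hf2 (mem_sub hw2 he2)).trans ?_
      refine mul_le_mul_of_nonneg_left ?_ (I_sq_nonneg f)
      exact (hC.toIsDir.I_sq_le_nrm2 (hC.sub_mem hw heW)).trans hi.le
    have h3 : I (f * w) ^ 2 ≤ 0 := by
      refine le_of_forall_pos_le_add fun δ hδ => ?_
      have h4 := h1 (δ / (I (f ^ 2) + 1)) (by have := I_sq_nonneg f; positivity)
      refine h4.trans ?_
      have h5 := I_sq_nonneg f
      rw [zero_add, mul_div_assoc', div_le_iff₀ (by linarith)]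
      nlinarith
    exact pow_eq_zero_iff (two_ne_zero) |>.1 (le_antisymm h3 (sq_nonneg _))
  rw [hz] at hfg
  filter_upwards [hfg, AEEqFun.coeFn_zero (α := M) (β := ℝ) (μ := m)] with x h1 h2
  rw [← h1, h2]
  rfl

omit [SigmaFinite m] [CompleteSpace E] in
/-- the gradients of functions in `Test` are bounded -/
theorem gr_bdd (hC : IsGamma C) (hS : Stat C Gr HO e) (i : ℕ) :
    ∃ B : ℝ, ∀ᵐ x ∂m, ‖Gr (e i) x‖ ≤ B := by
  have hW := hC.tW (hS.testI i).1
  obtain ⟨B, hB⟩ := mem_top_iff.1 (hC.test_Γ_top (hS.testI i).1)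
  refine ⟨√B, ?_⟩
  filter_upwards [hB, hS.grad.inner _ hW _ hW] with x h1 h2
  refine Real.le_sqrt_of_sq_le ?_
  rw [← real_inner_self_eq_norm_sq, h2]
  exact (le_abs_self _).trans h1

omit [SigmaFinite m] [CompleteSpace E] in
theorem e_bdd (hC : IsGamma C) (hS : Stat C Gr HO e) (i : ℕ) : ∃ B : ℝ, ∀ᵐ x ∂m, |e i x| ≤ B :=
  mem_top_iff.1 (hC.test_A (hS.testI i).1).2

/-- (B2) of helper994's note 9266 for the static data `Stat`. -/
theorem weak_zero_stat (hC : IsGamma C) (hS : Stat C Gr HO e) {ι : Type*} {l : Filter ι} {s : ℝ}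
    {F : ι → ℝ × M → E} {K : ℝ}
    (hF : ∀ᶠ n in l, MemLp (F n) 2 ((volume.restrict (Ioc s 1)).prod m) ∧
      ∫ z, ‖F n z‖ ^ 2 ∂((volume.restrict (Ioc s 1)).prod m) ≤ K ∧
      ∀ᵐ z ∂((volume.restrict (Ioc s 1)).prod m),
        F n z ∈ (Submodule.span ℝ (range fun j => Gr (e j) z.2)).topologicalClosure)
    (hT : ∀ a b, s ≤ a → a ≤ b → b ≤ 1 → ∀ i j,
      Tendsto (fun n => ∫ z, (Ioc a b).indicator (fun _ => (1 : ℝ)) z.1 *
        (e j z.2 * ⟪F n z, Gr (e i) z.2⟫_ℝ) ∂((volume.restrict (Ioc s 1)).prod m)) l (𝓝 0))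
    {Φ : ℝ × M → E} (hΦ : MemLp Φ 2 ((volume.restrict (Ioc s 1)).prod m)) :
    Tendsto (fun n => ∫ z, ⟪F n z, Φ z⟫_ℝ ∂((volume.restrict (Ioc s 1)).prod m)) l (𝓝 0) :=
  weak_zero (G := fun i => Gr (e i)) (fun i => hS.grad.mem _ (hC.tW (hS.testI i).1)) (gr_bdd hC hS)
    (e_bdd hC hS) (fun _ hg h => stat_orth hC hS hg h) hF hT hΦ

end stat

end Vale.Agent.P233.H131
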